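import Vale.Agent.P267P.Defs
import Vale.Agent.P267I.Forms2

/-! The Chern-Weil layer: definitions. FROZEN. -/

open scoped Manifold ContDiff Topology
open Filter Set Metric MeasureTheory

noncomputable section

namespace Vale.Agent.P267CW

open Vale.Agent.P267F Vale.Agent.P267I

abbrev Alt (k : ℕ) := C2 [⋀^Fin k]→L[ℝ] ℂ

/-- A form of degree `k`, given at each `x` in the chart at `x`. -/
abbrev Fm (X : Type) (k : ℕ) := X → Alt k

variable {X : Type} [TopologicalSpace X] [ChartedSpace C2 X] {k : ℕ}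

/-- The chart at `p`. -/
abbrev ch (p : X) : OpenPartialHomeomorph X C2 := chartAt C2 p

/-- The expression of a form in the chart at `p`. -/
def inC (p : X) (A : Fm X k) (z : C2) : Alt k :=
  (A ((ch p).symm z)).compContinuousLinearMap (fderiv ℝ (ch ((ch p).symm z) ∘ (ch p).symm) z)

/-- The exterior derivative. -/
def dF (A : Fm X k) : Fm X (k + 1) := fun x => extDeriv (inC x A) (ch x x)

/-- Smooth at a point. -/
abbrev Sa (A : Fm X k) (x : X) : Prop := ContDiffAt ℝ ∞ (inC x A) (ch x x)

/-- Smooth on a set. -/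
def SmOn (W : Set X) (A : Fm X k) : Prop := ∀ x ∈ W, Sa A x

/-- Smooth real functions. -/
def SmF (f : X → ℝ) : Prop := ∀ x, ContDiffAt ℝ ∞ (f ∘ (ch x).symm) (ch x x)

/-- A function times a form. -/
def mulF (f : X → ℝ) (A : Fm X k) : Fm X k := fun x => f x • A x

/-- A function as a form of degree zero. -/
def fn0 (f : X → ℂ) : Fm X 0 := fun x => ContinuousAlternatingMap.constOfIsEmpty ℝ C2 (Fin 0) (f x)

/-- Closed smooth forms. -/
def Cls (A : Fm X k) : Prop := SmOn univ A ∧ dF A = 0

/-- The two-form in the convention of the statement. -/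
def to2 (A : Fm X 2) : Form2 X := fun x v w => A x ![v, w]

/-- A one-form in the convention of the statement as a form of degree one. -/
def of1 (θ : Form1 X) : Fm X 1 := fun x =>
  ContinuousAlternatingMap.ofSubsingleton ℝ C2 ℂ (0 : Fin 1) (θ x)

/-- The Chern form of a connection. -/
def cf (θ : X → Form1 X) : Fm X 2 := fun x =>
  (-(2 * Real.pi * Complex.I) : ℂ)⁻¹ • dF (of1 (θ x)) x

/-- Exact two-forms. -/
def Exa (A : Fm X 2) : Prop := ∃ η : Fm X 1, SmOn univ η ∧ A = dF η

/-- The coefficients of a two-form on affine space. -/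
def cf2 (A : Alt 2) (a b : Fin 4) : ℂ := A ![bs a, bs b]

/-- A smooth partition of unity subordinate to charts. -/
structure PU (X : Type) [TopologicalSpace X] [ChartedSpace C2 X] where
  l : ℕ
  p : Fin l → X
  ρ : Fin l → X → ℝ
  ρ_sm : ∀ i, SmF (ρ i)
  ρ_supp : ∀ i, tsupport (ρ i) ⊆ (ch (p i)).source
  ρ_sum : ∀ x, ∑ i, ρ i x = 1

/-- The integral of the product of two two-forms. -/
def PU.W (G : PU X) (A B : Fm X 2) : ℂ :=
  ∑ i, ∫ z in (ch (G.p i)).target, (G.ρ i ((ch (G.p i)).symm z) : ℂ) *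
    wedge (coef2 (ch (G.p i)) (to2 A) z) (coef2 (ch (G.p i)) (to2 B) z)

end Vale.Agent.P267CW
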