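import Vale.Agent.P267CW.B0
import Vale.Agent.P267F.Canon

/-! Charts and forms. Hints: `Vale.Agent.P267.cn_an` gives analytic transition maps, chain rule as in
`cn_chain`; `extDeriv_pullback`; `ContDiffAt.continuousAlternatingMapCompContinuousLinearMap` or the
multilinear formula for smoothness of the pull back; `inC p A` agrees near `ch p x` with the pull back of
`inC q A` by the transition map. -/

open scoped Manifold ContDiff Topology
open Filter Set Metric MeasureTheory

noncomputable section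

namespace Vale.Agent.P267CW

open Vale.Agent.P267F Vale.Agent.P267I

set_option linter.unusedSectionVars false

section Pull

variable {D E E' F : Type} [NormedAddCommGroup D] [NormedSpace ℝ D]
  [NormedAddCommGroup E] [NormedSpace ℝ E] [NormedAddCommGroup E'] [NormedSpace ℝ E']
  [NormedAddCommGroup F] [NormedSpace ℝ F] {k : ℕ}

/-- alternatization as a continuous linear map -/
def BA_altz (E F : Type) [NormedAddCommGroup E] [NormedSpace ℝ E] [NormedAddCommGroup F]
    [NormedSpace ℝ F] (k : ℕ) :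
    ContinuousMultilinearMap ℝ (fun _ : Fin k => E) F →L[ℝ] E [⋀^Fin k]→L[ℝ] F :=
  LinearMap.mkContinuous
    { toFun := fun f => ContinuousMultilinearMap.alternatization f
      map_add' := fun f g => map_add _ f g
      map_smul' := fun c f => by
        ext v
        simp [ContinuousMultilinearMap.alternatization_apply_apply, Finset.smul_sum,
          smul_comm c] } (Fintype.card (Equiv.Perm (Fin k))) fun f => by
    refine ContinuousAlternatingMap.opNorm_le_bound _ (by positivity) fun v => ?_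
    simp only [LinearMap.coe_mk, AddHom.coe_mk,
      ContinuousMultilinearMap.alternatization_apply_apply]
    refine (norm_sum_le _ _).trans ?_
    have : ∀ σ : Equiv.Perm (Fin k), ‖Equiv.Perm.sign σ • f (v ∘ σ)‖ ≤ ‖f‖ * ∏ i, ‖v i‖ := by
      intro σ
      have h1 : ‖Equiv.Perm.sign σ • f (v ∘ σ)‖ = ‖f (v ∘ σ)‖ := by
        rcases Int.units_eq_one_or (Equiv.Perm.sign σ) with h | h <;> simp [h]
      rw [h1, ← Equiv.prod_comp σ fun i => ‖v i‖]
      exact f.le_opNorm _
    refine (Finset.sum_le_sum fun σ _ => this σ).trans_eq ?_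
    simp [mul_assoc]

theorem BA_altz_alt (f : E [⋀^Fin k]→L[ℝ] F) :
    BA_altz E F k f.toContinuousMultilinearMap = (k.factorial : ℝ) • f := by
  ext v
  have h : ∀ σ : Equiv.Perm (Fin k),
      Equiv.Perm.sign σ • f.toContinuousMultilinearMap (v ∘ σ) = f v := fun σ => by
    have := f.toAlternatingMap.map_perm v σ
    change Equiv.Perm.sign σ • f.toAlternatingMap (v ∘ σ) = f.toAlternatingMap v
    rw [this, smul_smul, Int.units_mul_self, one_smul]
  change ContinuousMultilinearMap.alternatization f.toContinuousMultilinearMap v = _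
  rw [ContinuousMultilinearMap.alternatization_apply_apply]
  simp only [h, Finset.sum_const, Finset.card_univ, Fintype.card_perm, Fintype.card_fin,
    ContinuousAlternatingMap.smul_apply, Nat.cast_smul_eq_nsmul]

theorem BA_cd_of_multi {n : ℕ∞ω} {f : D → E [⋀^Fin k]→L[ℝ] F} {x : D}
    (h : ContDiffAt ℝ n (fun y => (f y).toContinuousMultilinearMap) x) : ContDiffAt ℝ n f x := by
  have h1 : ContDiffAt ℝ n (fun y => BA_altz E F k (f y).toContinuousMultilinearMap) x :=
    ContDiffAt.comp (g := fun g => BA_altz E F k g) x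
      (ContinuousLinearMap.contDiff (𝕜 := ℝ)
        (E := ContinuousMultilinearMap ℝ (fun _ : Fin k => E) F)
        (F := E [⋀^Fin k]→L[ℝ] F) (BA_altz E F k)).contDiffAt h
  have h2 := h1.const_smul ((k.factorial : ℝ)⁻¹)
  have h3 : (k.factorial : ℝ) ≠ 0 := by positivity
  simpa [BA_altz_alt, smul_smul, h3] using h2

theorem BA_cd_multi {n : ℕ∞ω} {f : D → E [⋀^Fin k]→L[ℝ] F} {x : D} (h : ContDiffAt ℝ n f x) :
    ContDiffAt ℝ n (fun y => (f y).toContinuousMultilinearMap) x :=
  ContDiffAt.comp (g := fun g : E [⋀^Fin k]→L[ℝ] F => g.toContinuousMultilinearMap) x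
    (ContinuousLinearMap.contDiff (𝕜 := ℝ) (E := E [⋀^Fin k]→L[ℝ] F)
      (F := ContinuousMultilinearMap ℝ (fun _ : Fin k => E) F)
      (ContinuousAlternatingMap.toContinuousMultilinearMapCLM ℝ)).contDiffAt h

/-- pull-back along a smooth family of linear maps -/
theorem BA_cd_pull {n : ℕ∞ω} {f : D → E' [⋀^Fin k]→L[ℝ] F} {g : D → E →L[ℝ] E'} {x : D}
    (hf : ContDiffAt ℝ n f x) (hg : ContDiffAt ℝ n g x) :
    ContDiffAt ℝ n (fun y => (f y).compContinuousLinearMap (g y)) x := by
  refine BA_cd_of_multi ?_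
  have h1 : ContDiffAt ℝ n (fun y =>
      ContinuousMultilinearMap.compContinuousLinearMapContinuousMultilinear ℝ
        (fun _ : Fin k => E) (fun _ => E') F (fun _ => g y)) x :=
    ContDiffAt.comp (g := ContinuousMultilinearMap.compContinuousLinearMapContinuousMultilinear ℝ
        (fun _ : Fin k => E) (fun _ => E') F) x (ContinuousMultilinearMap.contDiff _).contDiffAt
      (contDiffAt_pi.2 fun _ => hg)
  exact h1.clm_apply (BA_cd_multi hf)

end Pull

variable {X : Type} [TopologicalSpace X] [ChartedSpace C2 X] [IsManifold 𝓘(ℂ, C2) ω X] {k : ℕ}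

theorem tr_sm {p q x : X} (hp : x ∈ (ch p).source) (hq : x ∈ (ch q).source) :
    ContDiffAt ℝ ∞ (ch q ∘ (ch p).symm) (ch p x) := by
  exact ((Vale.Agent.P267.cn_an hp hq).contDiffAt (n := ∞)).restrict_scalars ℝ

theorem BA_val {p q x : X} (hp : x ∈ (ch p).source) :
    (ch q ∘ (ch p).symm) (ch p x) = ch q x := by
  simp only [Function.comp_apply, (ch p).left_inv hp]

theorem tr_chain {p q r x : X} (hp : x ∈ (ch p).source) (hq : x ∈ (ch q).source)
    (hr : x ∈ (ch r).source) : fderiv ℝ (ch r ∘ (ch p).symm) (ch p x) =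
      (fderiv ℝ (ch r ∘ (ch q).symm) (ch q x)).comp (fderiv ℝ (ch q ∘ (ch p).symm) (ch p x)) := by
  have h1 : DifferentiableAt ℝ (ch q ∘ (ch p).symm) (ch p x) :=
    (tr_sm hp hq).differentiableAt (by simp)
  have h2 : DifferentiableAt ℝ (ch r ∘ (ch q).symm) (ch q x) :=
    (tr_sm hq hr).differentiableAt (by simp)
  have e0 : (ch q ∘ (ch p).symm) (ch p x) = ch q x := BA_val hp
  have e : (ch r ∘ (ch p).symm) =ᶠ[𝓝 (ch p x)]
      (ch r ∘ (ch q).symm) ∘ (ch q ∘ (ch p).symm) := by
    filter_upwards [((ch p).tendsto_symm hp).eventually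
      ((ch q).eventually_left_inverse hq)] with y hy
    simp only [Function.comp_apply] at hy ⊢
    rw [hy]
  rw [e.fderiv_eq, fderiv_comp _ (by rw [e0]; exact h2) h1, e0]

theorem tr_self {p x : X} (hp : x ∈ (ch p).source) :
    fderiv ℝ (ch p ∘ (ch p).symm) (ch p x) = ContinuousLinearMap.id ℝ C2 := by
  have e : (ch p ∘ (ch p).symm) =ᶠ[𝓝 (ch p x)] id := (ch p).eventually_right_inverse' hp
  rw [e.fderiv_eq, fderiv_id]

theorem BA_inC (A : Fm X k) {p x : X} (hp : x ∈ (ch p).source) :
    inC p A (ch p x) =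
      (A x).compContinuousLinearMap (fderiv ℝ (ch x ∘ (ch p).symm) (ch p x)) := by
  unfold inC
  rw [(ch p).left_inv hp]

theorem inC_self (A : Fm X k) (x : X) : inC x A (ch x x) = A x := by
  rw [BA_inC A (mem_chart_source C2 x), tr_self (mem_chart_source C2 x)]
  ext v
  rfl

theorem inC_tr (A : Fm X k) {p q x : X} (hp : x ∈ (ch p).source) (hq : x ∈ (ch q).source) :
    inC p A (ch p x) =
      (inC q A (ch q x)).compContinuousLinearMap (fderiv ℝ (ch q ∘ (ch p).symm) (ch p x)) := by
  rw [BA_inC A hp, BA_inC A hq, tr_chain hp hq (mem_chart_source C2 x)]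
  ext v
  rfl

theorem inC_congr {A B : Fm X k} {p x : X} (hp : x ∈ (ch p).source) (h : A =ᶠ[𝓝 x] B) :
    inC p A =ᶠ[𝓝 (ch p x)] inC p B := by
  filter_upwards [((ch p).tendsto_symm hp).eventually h] with z hz
  unfold inC
  rw [hz]

theorem BA_ev (A : Fm X k) {p q x : X} (hp : x ∈ (ch p).source) (hq : x ∈ (ch q).source) :
    inC p A =ᶠ[𝓝 (ch p x)] fun z => (inC q A ((ch q ∘ (ch p).symm) z)).compContinuousLinearMap
      (fderiv ℝ (ch q ∘ (ch p).symm) z) := by
  filter_upwards [((ch p).tendsto_symm hp).eventually ((ch q).open_source.mem_nhds hq),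
    (ch p).open_target.mem_nhds ((ch p).map_source hp)] with z hz ht
  have h := inC_tr A ((ch p).map_target ht) hz
  rw [(ch p).right_inv ht] at h
  exact h

theorem BA_sm {A : Fm X k} {p q x : X} (hp : x ∈ (ch p).source) (hq : x ∈ (ch q).source)
    (h : ContDiffAt ℝ ∞ (inC q A) (ch q x)) : ContDiffAt ℝ ∞ (inC p A) (ch p x) := by
  have h1 : ContDiffAt ℝ ∞ (fun z => inC q A ((ch q ∘ (ch p).symm) z)) (ch p x) :=
    ContDiffAt.comp (g := inC q A) _ (by rw [BA_val hp]; exact h) (tr_sm hp hq)
  have h2 : ContDiffAt ℝ ∞ (fderiv ℝ (ch q ∘ (ch p).symm)) (ch p x) :=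
    (tr_sm hp hq).fderiv_right (m := ∞) (by simp)
  exact (BA_cd_pull h1 h2).congr_of_eventuallyEq (BA_ev A hp hq)

theorem sa_iff {A : Fm X k} {p x : X} (hp : x ∈ (ch p).source) :
    Sa A x ↔ ContDiffAt ℝ ∞ (inC p A) (ch p x) := by
  exact ⟨fun h => BA_sm hp (mem_chart_source C2 x) h,
    fun h => BA_sm (mem_chart_source C2 x) hp h⟩

theorem inC_dF {A : Fm X k} {p x : X} (hp : x ∈ (ch p).source) (h : Sa A x) :
    inC p (dF A) (ch p x) = extDeriv (inC p A) (ch p x) := by
  have hx := mem_chart_source C2 x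
  have hd : DifferentiableAt ℝ (inC x A) ((ch x ∘ (ch p).symm) (ch p x)) := by
    rw [BA_val hp]
    exact h.differentiableAt (by simp)
  rw [(BA_ev A hp hx).extDeriv_eq, extDeriv_pullback hd (tr_sm hp hx) (by
    rw [minSmoothness_of_isRCLikeNormedField]
    exact WithTop.coe_le_coe.2 le_top), BA_val hp, BA_inC _ hp]
  rfl

theorem dF_congr {A B : Fm X k} {x : X} (h : A =ᶠ[𝓝 x] B) : dF A x = dF B x := by
  exact (inC_congr (mem_chart_source C2 x) h).extDeriv_eq

theorem Sa.congr {A B : Fm X k} {x : X} (h : Sa A x) (e : A =ᶠ[𝓝 x] B) : Sa B x := by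
  exact ContDiffAt.congr_of_eventuallyEq h (inC_congr (mem_chart_source C2 x) e).symm

theorem SmF.chart {f : X → ℝ} (h : SmF f) {p x : X} (hp : x ∈ (ch p).source) :
    ContDiffAt ℝ ∞ (f ∘ (ch p).symm) (ch p x) := by
  have hx := mem_chart_source C2 x
  have h1 : ContDiffAt ℝ ∞ ((f ∘ (ch x).symm) ∘ (ch x ∘ (ch p).symm)) (ch p x) :=
    ContDiffAt.comp _ (by rw [BA_val hp]; exact h x) (tr_sm hp hx)
  refine h1.congr_of_eventuallyEq ?_
  filter_upwards [((ch p).tendsto_symm hp).eventually
    ((ch x).eventually_left_inverse hx)] with y hy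
  simp only [Function.comp_apply] at hy ⊢
  rw [hy]

theorem SmF.cont {f : X → ℝ} (h : SmF f) : Continuous f := by
  refine continuous_iff_continuousAt.2 fun x => ?_
  have hx := mem_chart_source C2 x
  have h1 : ContinuousAt ((f ∘ (ch x).symm) ∘ ch x) x :=
    ContinuousAt.comp (h x).continuousAt ((ch x).continuousAt hx)
  refine h1.congr ?_
  filter_upwards [(ch x).eventually_left_inverse hx] with y hy
  simp only [Function.comp_apply]
  rw [hy]

end Vale.Agent.P267CW
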