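import Vale.Agent.P267CW.BA

/-! Algebra of smooth forms. `inC p` is linear by `rfl` or `ext`; use `extDeriv_add`, `extDeriv_apply`,
`extDeriv_extDeriv_apply`, `inC_dF`, `sa_iff`. -/

open scoped Manifold ContDiff Topology
open Filter Set Metric MeasureTheory

noncomputable section

namespace Vale.Agent.P267CW

open Vale.Agent.P267F Vale.Agent.P267I

variable {X : Type} [TopologicalSpace X] [ChartedSpace C2 X] [IsManifold 𝓘(ℂ, C2) ω X] {k : ℕ}

variable {A B : Fm X k} {x : X} {W : Set X} {f : X → ℝ}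

theorem BB_zero (p : X) : inC p (0 : Fm X k) = fun _ => 0 := by
  funext z
  ext v
  rfl

theorem BB_add (p : X) (A B : Fm X k) : inC p (A + B) = inC p A + inC p B := by
  funext z
  ext v
  rfl

theorem BB_smul (p : X) (c : ℂ) (A : Fm X k) : inC p (c • A) = c • inC p A := by
  funext z
  ext v
  rfl

theorem BB_fn0 (p : X) (g : X → ℂ) : inC p (fn0 g) = fun z =>
    ContinuousAlternatingMap.constOfIsEmpty ℝ C2 (Fin 0) ((g ∘ (ch p).symm) z) := by
  funext z
  ext v
  rfl

theorem BB_sub (A B : Fm X k) : A - B = A + (-1 : ℂ) • B := by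
  funext z
  ext v
  simp [sub_eq_add_neg]

theorem BB_d (h : Sa A x) : DifferentiableAt ℝ (inC x A) (ch x x) := h.differentiableAt (by simp)

theorem sa_zero : Sa (0 : Fm X k) x := by
  rw [Sa, BB_zero]
  exact contDiffAt_const

theorem Sa.add (h : Sa A x) (h' : Sa B x) : Sa (A + B) x := by
  rw [Sa, BB_add]
  exact ContDiffAt.add h h'

theorem BB_sa_smul (c : ℂ) (h : Sa A x) : Sa (c • A) x := by
  rw [Sa, BB_smul]
  exact ContDiffAt.const_smul c h

theorem Sa.sub (h : Sa A x) (h' : Sa B x) : Sa (A - B) x := by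
  rw [BB_sub]
  exact Sa.add h (BB_sa_smul _ h')

theorem Sa.smul (c : ℂ) (h : Sa A x) : Sa (c • A) x := by
  exact BB_sa_smul c h

theorem sa_sum {ι : Type} (s : Finset ι) {A : ι → Fm X k} (h : ∀ i ∈ s, Sa (A i) x) :
    Sa (∑ i ∈ s, A i) x := by
  exact Finset.sum_induction A (Sa · x) (fun _ _ => Sa.add) sa_zero h

theorem Sa.mulF (hf : SmF f) (h : Sa A x) : Sa (mulF f A) x := by
  have e : inC x (P267CW.mulF f A) = fun z => (f ∘ (ch x).symm) z • inC x A z := by
    funext z
    ext v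
    rfl
  rw [Sa, e]
  exact ContDiffAt.smul (hf x) h

theorem sa_mulF (hf : SmF f) (h : x ∈ tsupport f → Sa A x) : Sa (mulF f A) x := by
  by_cases hx : x ∈ tsupport f
  · exact Sa.mulF hf (h hx)
  · refine Sa.congr sa_zero ?_
    filter_upwards [notMem_tsupport_iff_eventuallyEq.1 hx] with y hy
    ext v
    simp [mulF, hy]

theorem sa_fn0 {g : X → ℂ} : Sa (fn0 g) x ↔ ContDiffAt ℝ ∞ (g ∘ (ch x).symm) (ch x x) := by
  rw [Sa, BB_fn0]
  exact (ContinuousAlternatingMap.constOfIsEmptyLIE ℝ C2 ℂ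
    (Fin 0)).toContinuousLinearEquiv.comp_contDiffAt_iff

theorem fn0_apply (A : Fm X 0) : (fn0 fun x => A x ![]) = A := by
  funext y
  ext v
  exact congrArg (A y) (Subsingleton.elim _ _)

theorem BB_dc (c : Alt k) (z : C2) : extDeriv (fun _ : C2 => c) z = 0 := by
  ext v
  rw [extDeriv_apply (differentiableAt_const c)]
  simp

theorem dF_zero : dF (0 : Fm X k) = 0 := by
  funext y
  rw [dF, BB_zero]
  exact BB_dc _ _

theorem dF_const (c : ℂ) : dF (fn0 fun _ : X => c) = 0 := by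
  funext y
  rw [dF, BB_fn0]
  exact BB_dc (ContinuousAlternatingMap.constOfIsEmpty ℝ C2 (Fin 0) c) _

theorem dF_add (h : Sa A x) (h' : Sa B x) : dF (A + B) x = dF A x + dF B x := by
  rw [dF, BB_add]
  exact extDeriv_add (BB_d h) (BB_d h')

theorem BB_dF_smul (c : ℂ) (h : Sa A x) : dF (c • A) x = c • dF A x := by
  rw [dF, BB_smul, dF, extDeriv, extDeriv, fderiv_const_smul (BB_d h)]
  exact ContinuousAlternatingMap.alternatizeUncurryFin_smul _ _

theorem dF_sub (h : Sa A x) (h' : Sa B x) : dF (A - B) x = dF A x - dF B x := by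
  rw [BB_sub, dF_add h (Sa.smul _ h'), BB_dF_smul _ h']
  ext v
  simp [sub_eq_add_neg]

theorem dF_smul (c : ℂ) (h : Sa A x) : dF (c • A) x = c • dF A x := by
  exact BB_dF_smul c h

theorem dF_sum {ι : Type} (s : Finset ι) {A : ι → Fm X k} (h : ∀ i ∈ s, Sa (A i) x) :
    dF (∑ i ∈ s, A i) x = ∑ i ∈ s, dF (A i) x := by
  induction s using Finset.cons_induction with
  | empty => exact congrFun dF_zero x
  | cons a s ha ih =>
    have h' := (Finset.forall_mem_cons ha _).1 h
    rw [Finset.sum_cons, Finset.sum_cons, dF_add h'.1 (sa_sum s h'.2), ih h'.2]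

theorem BB_ev (hW : IsOpen W) (h : SmOn W A) (hx : x ∈ W) :
    inC x (dF A) =ᶠ[𝓝 (ch x x)] extDeriv (inC x A) := by
  have hs := mem_chart_source C2 x
  filter_upwards [((ch x).tendsto_symm hs).eventually (hW.mem_nhds hx),
    (ch x).open_target.mem_nhds ((ch x).map_source hs)] with z hz ht
  have e := inC_dF ((ch x).map_target ht) (h _ hz)
  rwa [(ch x).right_inv ht] at e

theorem SmOn.dF (hW : IsOpen W) (h : SmOn W A) : SmOn W (dF A) := by
  intro y hy
  refine ContDiffAt.congr_of_eventuallyEq ?_ (BB_ev hW h hy)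
  exact (ContinuousAlternatingMap.alternatizeUncurryFinCLM ℝ C2 ℂ).contDiff.contDiffAt.comp _
    (ContDiffAt.fderiv_right (m := ∞) (h y hy) (by simp))

theorem dF_dF (hW : IsOpen W) (h : SmOn W A) (hx : x ∈ W) : dF (dF A) x = 0 := by
  refine (BB_ev hW h hx).extDeriv_eq.trans (extDeriv_extDeriv_apply (h x hx) ?_)
  rw [minSmoothness_of_isRCLikeNormedField]
  exact WithTop.coe_le_coe.2 le_top

theorem dF_fn0 {g : X → ℂ} (h : Sa (fn0 g) x) (v : Fin 1 → C2) :
    dF (fn0 g) x v = dAt g x (v 0) := by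
  rw [dF, BB_fn0, extDeriv_constOfIsEmpty]
  rfl

end Vale.Agent.P267CW
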