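import Vale.Agent.P267CW.BA

/-! Smooth partitions of unity: bumps `ContDiffBump` in charts extended by zero, finite subcover of the
sets where they are positive, divide by the sum (or adapt `pop_alt` of P267B). -/

open scoped Manifold ContDiff Topology
open Filter Set Metric MeasureTheory

noncomputable section

namespace Vale.Agent.P267CW

open Vale.Agent.P267F Vale.Agent.P267I

set_option linter.unusedSectionVars false

variable {X : Type} [TopologicalSpace X] [ChartedSpace C2 X] [IsManifold 𝓘(ℂ, C2) ω X] {k : ℕ}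

theorem BE0_man : IsManifold 𝓘(ℝ, C2) ∞ X := by
  refine isManifold_of_contDiffOn _ _ _ fun e e' he he' => ?_
  have h := (contDiffGroupoid ω 𝓘(ℂ, C2)).compatible he he'
  rw [contDiffGroupoid, mem_groupoid_of_pregroupoid] at h
  have h1 := h.1
  simp only [contDiffPregroupoid, modelWithCornersSelf_coe, modelWithCornersSelf_coe_symm,
    Function.comp_id, Function.id_comp, preimage_id_eq, id_eq, range_id, inter_univ] at h1 ⊢
  exact (h1.restrict_scalars ℝ).of_le le_top

theorem exists_pou (hX : IsSurface X) (W : X → Set X) (hW : ∀ p, W p ∈ 𝓝 p) :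
    ∃ (l : ℕ) (p : Fin l → X) (ρ : Fin l → X → ℝ), (∀ i, SmF (ρ i)) ∧
      (∀ i, tsupport (ρ i) ⊆ W (p i)) ∧ ∀ x, ∑ i, ρ i x = 1 := by
  obtain ⟨-, h2, h3, -⟩ := hX
  have : IsManifold 𝓘(ℝ, C2) ∞ X := BE0_man
  obtain ⟨t, ht⟩ := isCompact_univ.elim_nhds_subcover (fun p => interior (W p))
    fun p _ => interior_mem_nhds.2 (hW p)
  let p : Fin t.card → X := fun i => t.equivFin.symm i
  obtain ⟨f, hf⟩ := SmoothPartitionOfUnity.exists_isSubordinate 𝓘(ℝ, C2) isClosed_univ
    (fun i => interior (W (p i))) (fun _ => isOpen_interior) fun x hx => by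
      obtain ⟨q, hq, hx⟩ := mem_iUnion₂.1 (ht.2 hx)
      exact mem_iUnion.2 ⟨t.equivFin ⟨q, hq⟩, by simpa [p] using hx⟩
  refine ⟨t.card, p, fun i => f i, fun i x => ?_, fun i => (hf i).trans interior_subset,
    fun x => ?_⟩
  · have h := contMDiffAt_iff_source.1 ((f i).contMDiff x)
    simp only [modelWithCornersSelf_coe, range_id, contMDiffWithinAt_univ] at h
    exact contMDiffAt_iff_contDiffAt.1 h
  · rw [← finsum_eq_sum_of_fintype]
    exact f.sum_eq_one (mem_univ x)

end Vale.Agent.P267CW
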