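import Vale.Agent.P267CW.BB

/-! Chern forms. -/

open scoped Manifold ContDiff Topology
open Filter Set Metric MeasureTheory

noncomputable section

namespace Vale.Agent.P267CW

open Vale.Agent.P267F Vale.Agent.P267I

set_option linter.unusedSectionVars false

variable {X : Type} [TopologicalSpace X] [ChartedSpace C2 X] [IsManifold 𝓘(ℂ, C2) ω X] {k : ℕ}

variable {u : X → X → ℂ} {θ θ' : X → Form1 X}

theorem BH_ev {p : X} {P : C2 → Prop} : (∀ᶠ x in 𝓝 p, P (ch p x)) ↔ ∀ᶠ z in 𝓝 (ch p p), P z := by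
  rw [← (ch p).map_nhds_eq (mem_chart_source C2 p), eventually_map]

theorem BH_src (p : X) : ∀ᶠ x in 𝓝 p, x ∈ (ch p).source :=
  (ch p).open_source.mem_nhds (mem_chart_source C2 p)

theorem BH_clm {f : C2 → C2 →L[ℝ] ℂ} {z : C2}
    (h : ∀ i, ContDiffAt ℝ ∞ (fun y => f y (Module.finBasis ℝ C2 i)) z) : ContDiffAt ℝ ∞ f z := by
  have e : f = fun y => ∑ i, ContinuousLinearMap.smulRightL ℝ C2 ℂ
      (LinearMap.toContinuousLinearMap ((Module.finBasis ℝ C2).coord i))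
        (f y (Module.finBasis ℝ C2 i)) := by
    funext y
    refine ContinuousLinearMap.ext fun v => ?_
    conv_lhs => rw [← (Module.finBasis ℝ C2).sum_repr v, map_sum]
    simp only [map_smul]
    simp
  rw [e]
  exact ContDiffAt.sum fun i _ => (ContinuousLinearMap.contDiff _).contDiffAt.comp z (h i)

theorem BH_inC (η : Form1 X) (p : X) : inC p (of1 η) =
    (ContinuousAlternatingMap.ofSubsingletonLIE (𝕜 := ℝ) (E := C2) (F := ℂ) (0 : Fin 1)) ∘
      inChart (ch p) η := by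
  funext z
  rfl

theorem sa_of1 {η : Form1 X} {p : X} : (∀ᶠ x in 𝓝 p, Sa (of1 η) x) ↔ ∀ v, ∀ᶠ z in 𝓝 (ch p p),
    ContDiffAt ℝ ∞ (fun y => inChart (ch p) η y v) z := by
  constructor
  · intro h v
    rw [← BH_ev]
    filter_upwards [h, BH_src p] with x hx hs
    have k := (sa_iff hs).1 hx
    rw [BH_inC] at k
    have k2 := (ContinuousAlternatingMap.ofSubsingletonLIE (𝕜 := ℝ) (E := C2) (F := ℂ)
      (0 : Fin 1)).symm.contDiff.contDiffAt.comp (ch p x) k
    rw [← Function.comp_assoc, LinearIsometryEquiv.symm_comp_self, Function.id_comp] at k2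
    exact k2.clm_apply contDiffAt_const
  · intro h
    have h2 := BH_ev.2 (eventually_all.2 fun i => h (Module.finBasis ℝ C2 i))
    filter_upwards [h2, BH_src p] with x hx hs
    rw [sa_iff hs, BH_inC]
    exact (LinearIsometryEquiv.contDiff _).contDiffAt.comp _ (BH_clm hx)

theorem BH_own {g : X → ℂ} {p x : X} (hs : x ∈ (ch p).source)
    (h : ContDiffAt ℝ ∞ (g ∘ (ch p).symm) (ch p x)) :
    ContDiffAt ℝ ∞ (g ∘ (ch x).symm) (ch x x) := by
  have hx := mem_chart_source C2 x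
  have e : (ch p ∘ (ch x).symm) (ch x x) = ch p x := by
    rw [Function.comp_apply, (ch x).left_inv hx]
  have k := ContDiffAt.comp (ch x x) (e ▸ h) (tr_sm hx hs)
  refine k.congr_of_eventuallyEq (BH_ev.1 ?_)
  filter_upwards [BH_src x, (ch p).open_source.mem_nhds hs] with y h1 h2
  simp only [Function.comp_apply, (ch x).left_inv h1, (ch p).left_inv h2]

theorem BH_int {P : X → Prop} {p : X} (h : ∀ᶠ x in 𝓝 p, P x) :
    ∃ W : Set X, IsOpen W ∧ p ∈ W ∧ ∀ x ∈ W, P x := by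
  obtain ⟨W, h1, h2, h3⟩ := eventually_nhds_iff.1 h
  exact ⟨W, h2, h3, h1⟩

theorem d_dlog {g : X → ℂ} {p : X} (h : SmAt g p) (h0 : g p ≠ 0) :
    Sa (of1 fun x => (g x)⁻¹ • dAt g x) p ∧ dF (of1 fun x => (g x)⁻¹ • dAt g x) p = 0 := by
  have hp := mem_chart_source C2 p
  have c1 : ContinuousAt (fun z => (g p)⁻¹ * (g ∘ (ch p).symm) z) (ch p p) :=
    continuousAt_const.mul h.self_of_nhds.continuousAt
  have c2 : ∀ᶠ z in 𝓝 (ch p p), (g p)⁻¹ * (g ∘ (ch p).symm) z ∈ Complex.slitPlane := by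
    refine c1.eventually_mem (Complex.isOpen_slitPlane.mem_nhds ?_)
    rw [Function.comp_apply, (ch p).left_inv hp, inv_mul_cancel₀ h0]
    exact Complex.one_mem_slitPlane
  have c3 : ∀ᶠ x in 𝓝 p, ContDiffAt ℝ ∞ (g ∘ (ch x).symm) (ch x x) ∧
      (g p)⁻¹ * g x ∈ Complex.slitPlane := by
    filter_upwards [BH_ev.2 h, BH_ev.2 c2, BH_src p] with x h1 h2 hs
    rw [Function.comp_apply, (ch p).left_inv hs] at h2
    exact ⟨BH_own hs h1, h2⟩
  obtain ⟨W, hW, hpW, hP⟩ := BH_int c3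
  have e0 : ∀ x : X, (g ∘ (ch x).symm) (ch x x) = g x := fun x => by
    rw [Function.comp_apply, (ch x).left_inv (mem_chart_source C2 x)]
  have s1 : SmOn W (fn0 fun x => Complex.log ((g p)⁻¹ * g x)) := fun x hx => by
    rw [sa_fn0]
    have k : ContDiffAt ℝ ∞ Complex.log ((g p)⁻¹ * (g ∘ (ch x).symm) (ch x x)) := by
      rw [e0]
      exact (Complex.contDiffAt_log (hP x hx).2).restrict_scalars ℝ
    exact k.comp (ch x x) (f := fun z => (g p)⁻¹ * (g ∘ (ch x).symm) z)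
      (contDiffAt_const.mul (hP x hx).1)
  have e1 : dF (fn0 fun x => Complex.log ((g p)⁻¹ * g x)) =ᶠ[𝓝 p]
      of1 fun x => (g x)⁻¹ • dAt g x := by
    filter_upwards [hW.mem_nhds hpW] with x hx
    refine ContinuousAlternatingMap.ext fun v => ?_
    rw [dF_fn0 (s1 x hx)]
    have d1 := ((hP x hx).1.differentiableAt (by simp)).hasFDerivAt.const_mul (g p)⁻¹
    have d0 : HasDerivAt Complex.log ((g p)⁻¹ * g x)⁻¹
        ((g p)⁻¹ * (g ∘ (ch x).symm) (ch x x)) := by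
      rw [e0]
      exact Complex.hasDerivAt_log (hP x hx).2
    have d2 := (d0.comp_hasFDerivAt (ch x x) d1).fderiv
    have e2 : dAt (fun x => Complex.log ((g p)⁻¹ * g x)) x =
        ((g p)⁻¹ * g x)⁻¹ • (g p)⁻¹ • dAt g x := d2
    rw [e2, smul_smul, mul_inv, inv_inv, mul_right_comm, mul_inv_cancel₀ h0, one_mul]
    rfl
  exact ⟨(s1.dF hW p hpW).congr e1, (dF_congr e1).symm.trans (dF_dF hW s1 hpW)⟩

theorem BH_sa (h : IsConnection u θ) (p : X) : ∀ᶠ x in 𝓝 p, Sa (of1 (θ p)) x := sa_of1.2 (h.1 p)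

theorem cf_loc (hu : IsBundle SmAt u) (h : IsConnection u θ) (p : X) :
    ∀ᶠ x in 𝓝 p, cf θ x = (-(2 * Real.pi * Complex.I) : ℂ)⁻¹ • dF (of1 (θ p)) x := by
  filter_upwards [hu p, h.2 p] with x h1 h2
  obtain ⟨k1, k2⟩ := d_dlog h1.2 (div_ne_zero h1.1 (hu x).self_of_nhds.1)
  have e : of1 (θ p) =ᶠ[𝓝 x]
      of1 (θ x) + of1 fun y => ((u p / u x) y)⁻¹ • dAt (u p / u x) y := by
    filter_upwards [h2] with y hy
    refine ContinuousAlternatingMap.ext fun v => ?_
    change θ p y (v 0) = θ x y (v 0) + (((u p / u x) y)⁻¹ • dAt (u p / u x) y) (v 0)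
    rw [← hy, sub_apply, add_sub_cancel]
  rw [dF_congr e, dF_add (BH_sa h x).self_of_nhds k1, k2, add_zero]
  rfl

theorem cf_cls (hu : IsBundle SmAt u) (h : IsConnection u θ) : Cls (cf θ) := by
  have key : ∀ p, Sa (cf θ) p ∧ dF (cf θ) p = 0 := fun p => by
    obtain ⟨W, hW, hp, hP⟩ := BH_int (BH_sa h p)
    have s1 : SmOn W (of1 (θ p)) := hP
    have e : (-(2 * Real.pi * Complex.I) : ℂ)⁻¹ • dF (of1 (θ p)) =ᶠ[𝓝 p] cf θ := by
      filter_upwards [cf_loc hu h p] with x hx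
      exact hx.symm
    refine ⟨((s1.dF hW p hp).smul _).congr e, ?_⟩
    rw [← dF_congr e, dF_smul _ (s1.dF hW p hp), dF_dF hW s1 hp]
    refine ContinuousAlternatingMap.ext fun v => ?_
    simp
  exact ⟨fun p _ => (key p).1, funext fun p => (key p).2⟩

theorem cf_sub (hu : IsBundle SmAt u) (h : IsConnection u θ) (h' : IsConnection u θ') :
    Exa (cf θ - cf θ') := by
  have _ := hu
  have e : ∀ p, (-(2 * Real.pi * Complex.I) : ℂ)⁻¹ • (of1 (θ p) - of1 (θ' p)) =ᶠ[𝓝 p]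
      (-(2 * Real.pi * Complex.I) : ℂ)⁻¹ • of1 fun x => θ x x - θ' x x := fun p => by
    filter_upwards [h.2 p, h'.2 p] with x h1 h2
    have k : θ p x - θ' p x = θ x x - θ' x x := by
      have k1 := h1.self_of_nhds.trans h2.self_of_nhds.symm
      rw [sub_eq_sub_iff_sub_eq_sub] at k1
      exact k1
    rw [Pi.smul_apply, Pi.smul_apply]
    congr 1
    refine ContinuousAlternatingMap.ext fun v => ?_
    change θ p x (v 0) - θ' p x (v 0) = (θ x x - θ' x x) (v 0)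
    rw [← k, sub_apply]
  have s : ∀ p, Sa (of1 (θ p) - of1 (θ' p)) p := fun p =>
    (BH_sa h p).self_of_nhds.sub (BH_sa h' p).self_of_nhds
  refine ⟨_, fun p _ => ((s p).smul _).congr (e p), funext fun p => ?_⟩
  rw [← dF_congr (e p), dF_smul _ (s p),
    dF_sub (BH_sa h p).self_of_nhds (BH_sa h' p).self_of_nhds, smul_sub]
  rfl

end Vale.Agent.P267CW
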