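import Vale.Agent.P267CW.BH

/-! Products, inverses and isomorphisms of bundles with connection (logarithmic derivative of a product).
`SmAt` is an open condition by definition. For `conn_iso` take `θ p + d log (v p / u p)`. -/

open scoped Manifold ContDiff Topology
open Filter Set Metric MeasureTheory

noncomputable section

namespace Vale.Agent.P267CW

open Vale.Agent.P267F Vale.Agent.P267I

set_option linter.unusedSectionVars false

variable {X : Type} [TopologicalSpace X] [ChartedSpace C2 X] [IsManifold 𝓘(ℂ, C2) ω X] {k : ℕ}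

variable {u v : X → X → ℂ} {θ θ' : X → Form1 X}

/-- Smooth in the own chart and nonzero. -/
def BH2_G (g : X → ℂ) (x : X) : Prop := ContDiffAt ℝ ∞ (g ∘ (ch x).symm) (ch x x) ∧ g x ≠ 0

/-- The logarithmic derivative. -/
def BH2_L (g : X → ℂ) : Form1 X := fun x => (g x)⁻¹ • dAt g x

theorem BH2_e0 (g : X → ℂ) (x : X) : (g ∘ (ch x).symm) (ch x x) = g x := by
  rw [Function.comp_apply, (ch x).left_inv (mem_chart_source C2 x)]

theorem BH2_tr {g : X → ℂ} {p x : X} (hs : x ∈ (ch p).source)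
    (h : ContDiffAt ℝ ∞ (g ∘ (ch x).symm) (ch x x)) :
    ContDiffAt ℝ ∞ (g ∘ (ch p).symm) (ch p x) := by
  have hx := mem_chart_source C2 x
  have k := ContDiffAt.comp (ch p x) ((BA_val hs).symm ▸ h) (tr_sm hs hx)
  refine k.congr_of_eventuallyEq ?_
  have c : ∀ᶠ z in 𝓝 (ch p x), (ch p).symm z ∈ (ch x).source := by
    refine ((ch p).continuousAt_symm ((ch p).map_source hs)).eventually_mem ?_
    rw [(ch p).left_inv hs]
    exact BH_src x
  filter_upwards [c] with z hz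
  simp only [Function.comp_apply, (ch x).left_inv hz]

theorem BH2_iff {g : X → ℂ} {p : X} :
    SmAt g p ↔ ∀ᶠ x in 𝓝 p, ContDiffAt ℝ ∞ (g ∘ (ch x).symm) (ch x x) := by
  constructor
  · intro h
    filter_upwards [BH_ev.2 h, BH_src p] with x h1 hs using BH_own hs h1
  · intro h
    refine BH_ev.1 ?_
    filter_upwards [h, BH_src p] with x h1 hs using BH2_tr hs h1

theorem BH2_ev {g : X → ℂ} {p : X} (h : SmAt g p) (h0 : g p ≠ 0) : ∀ᶠ x in 𝓝 p, BH2_G g x := by
  have c : ∀ᶠ z in 𝓝 (ch p p), (g ∘ (ch p).symm) z ≠ 0 :=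
    h.self_of_nhds.continuousAt.eventually_ne ((BH2_e0 g p).symm ▸ h0)
  filter_upwards [BH2_iff.1 h, BH_ev.2 c, BH_src p] with x h1 h2 hs
  rw [Function.comp_apply, (ch p).left_inv hs] at h2
  exact ⟨h1, h2⟩

theorem BH2_mul {f g : X → ℂ} {x : X} (hf : BH2_G f x) (hg : BH2_G g x) :
    BH2_G (f * g) x ∧ BH2_L (f * g) x = BH2_L f x + BH2_L g x := by
  refine ⟨⟨hf.1.mul hg.1, mul_ne_zero hf.2 hg.2⟩, ?_⟩
  have d : dAt (f * g) x = (f ∘ (ch x).symm) (ch x x) • dAt g x +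
      (g ∘ (ch x).symm) (ch x x) • dAt f x :=
    fderiv_fun_mul (hf.1.differentiableAt (by simp)) (hg.1.differentiableAt (by simp))
  have h1 := hf.2
  have h2 := hg.2
  rw [BH2_L, BH2_L, BH2_L, d, BH2_e0, BH2_e0, smul_add, smul_smul, smul_smul, add_comm,
    Pi.mul_apply]
  congr 2 <;> field_simp

theorem BH2_inv {f : X → ℂ} {x : X} (hf : BH2_G f x) :
    BH2_G f⁻¹ x ∧ BH2_L f⁻¹ x = -BH2_L f x := by
  have h0 : (f ∘ (ch x).symm) (ch x x) ≠ 0 := (BH2_e0 f x).symm ▸ hf.2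
  refine ⟨⟨hf.1.inv h0, inv_ne_zero hf.2⟩, ?_⟩
  have d : dAt f⁻¹ x = (-((f ∘ (ch x).symm) (ch x x) ^ 2)⁻¹) • dAt f x :=
    ((hasDerivAt_inv h0).comp_hasFDerivAt (ch x x)
      (hf.1.differentiableAt (by simp)).hasFDerivAt).fderiv
  have h1 := hf.2
  have e : (f⁻¹ x)⁻¹ * -(f x ^ 2)⁻¹ = -(f x)⁻¹ := by
    rw [Pi.inv_apply]
    field_simp
  rw [BH2_L, BH2_L, d, BH2_e0, smul_smul, e]
  refine ContinuousLinearMap.ext fun w => ?_
  simp

theorem BH2_congr {f g : X → ℂ} {x : X} (h : f =ᶠ[𝓝 x] g) : BH2_L f x = BH2_L g x := by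
  have e : f ∘ (ch x).symm =ᶠ[𝓝 (ch x x)] g ∘ (ch x).symm := by
    refine BH_ev.1 ?_
    filter_upwards [h, BH_src x] with y h1 h2
    simp only [Function.comp_apply, (ch x).left_inv h2, h1]
  rw [BH2_L, BH2_L, h.self_of_nhds, dAt, dAt, e.fderiv_eq]

theorem BH2_bun (hu : IsBundle SmAt u) (p : X) :
    ∀ᶠ q in 𝓝 p, ∀ᶠ x in 𝓝 q, BH2_G (u p / u q) x := by
  filter_upwards [hu p] with q hq
  exact BH2_ev hq.2 (div_ne_zero hq.1 (hu q).self_of_nhds.1)

theorem BH2_add (a b : Form1 X) : of1 (a + b) = of1 a + of1 b :=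
  funext fun _ => ContinuousAlternatingMap.ext fun _ => rfl

theorem BH2_neg (a : Form1 X) : of1 (-a) = 0 - of1 a :=
  funext fun x => ContinuousAlternatingMap.ext fun w => by
    change -(a x (w 0)) = 0 - a x (w 0)
    rw [zero_sub]

theorem bun_one : IsBundle SmAt (1 : X → X → ℂ) ∧ IsConnection (1 : X → X → ℂ) 0 ∧
    cf (0 : X → Form1 X) = 0 := by
  have e : of1 (0 : Form1 X) = 0 := funext fun _ => ContinuousAlternatingMap.ext fun _ => rfl
  refine ⟨fun p => Eventually.of_forall fun q => ⟨one_ne_zero, Eventually.of_forall fun z =>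
    contDiffAt_const (c := (1 / 1 : ℂ))⟩, ⟨fun p => sa_of1.1 (Eventually.of_forall fun x => ?_),
    fun p => Eventually.of_forall fun q => Eventually.of_forall fun x => ?_⟩, funext fun x => ?_⟩
  · rw [Pi.zero_apply, e]
    exact sa_zero
  · have d : dAt ((1 : X → X → ℂ) p / (1 : X → X → ℂ) q) x = 0 :=
      (hasFDerivAt_const (1 / 1 : ℂ) _).fderiv
    rw [d]
    simp
  · rw [cf, Pi.zero_apply, e, dF_zero]
    refine ContinuousAlternatingMap.ext fun w => ?_
    simp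

theorem bun_mul (hu : IsBundle SmAt u) (hv : IsBundle SmAt v) : IsBundle SmAt (u * v) := by
  intro p
  filter_upwards [hu p, hv p, BH2_bun hu p, BH2_bun hv p] with q h1 h2 h3 h4
  refine ⟨mul_ne_zero h1.1 h2.1, BH2_iff.2 ?_⟩
  rw [Pi.mul_apply, Pi.mul_apply, mul_div_mul_comm]
  filter_upwards [h3, h4] with x a b using (BH2_mul a b).1.1

theorem bun_inv (hu : IsBundle SmAt u) : IsBundle SmAt u⁻¹ := by
  intro p
  filter_upwards [hu p, BH2_bun hu p] with q h1 h3
  refine ⟨inv_ne_zero h1.1, BH2_iff.2 ?_⟩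
  rw [Pi.inv_apply, Pi.inv_apply, inv_div_inv, ← inv_div]
  filter_upwards [h3] with x a using (BH2_inv a).1.1

theorem conn_mul (hu : IsBundle SmAt u) (hv : IsBundle SmAt v) (h : IsConnection u θ)
    (h' : IsConnection v θ') : IsConnection (u * v) (θ + θ') ∧ cf (θ + θ') = cf θ + cf θ' := by
  refine ⟨⟨fun p => sa_of1.1 ?_, fun p => ?_⟩, funext fun x => ?_⟩
  · rw [Pi.add_apply, BH2_add]
    filter_upwards [BH_sa h p, BH_sa h' p] with x a b using a.add b
  · filter_upwards [h.2 p, h'.2 p, BH2_bun hu p, BH2_bun hv p] with q h1 h2 h3 h4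
    rw [Pi.mul_apply, Pi.mul_apply, mul_div_mul_comm]
    filter_upwards [h1, h2, h3, h4] with x a b c d
    refine Eq.trans ?_ (BH2_mul c d).2.symm
    rw [BH2_L, BH2_L, ← a, ← b]
    simp only [Pi.add_apply]
    abel
  · rw [Pi.add_apply, cf, cf, cf, Pi.add_apply, BH2_add,
      dF_add (BH_sa h x).self_of_nhds (BH_sa h' x).self_of_nhds, smul_add]

theorem conn_inv (hu : IsBundle SmAt u) (h : IsConnection u θ) :
    IsConnection u⁻¹ (-θ) ∧ cf (-θ) = -cf θ := by
  refine ⟨⟨fun p => sa_of1.1 ?_, fun p => ?_⟩, funext fun x => ?_⟩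
  · rw [Pi.neg_apply, BH2_neg]
    filter_upwards [BH_sa h p] with x a using sa_zero.sub a
  · filter_upwards [h.2 p, BH2_bun hu p] with q h1 h3
    rw [Pi.inv_apply, Pi.inv_apply, inv_div_inv, ← inv_div]
    filter_upwards [h1, h3] with x a c
    refine Eq.trans ?_ (BH2_inv c).2.symm
    rw [BH2_L, ← a]
    simp only [Pi.neg_apply]
    abel
  · rw [Pi.neg_apply, cf, cf, Pi.neg_apply, BH2_neg, dF_sub sa_zero (BH_sa h x).self_of_nhds,
      dF_zero, Pi.zero_apply, zero_sub, smul_neg]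

theorem conn_iso (hu : IsBundle SmAt u) (hv : IsBundle SmAt v) (hs : ∀ p, SmAt (v p / u p) p)
    (h : IsConnection u θ) : ∃ θ', IsConnection v θ' ∧ cf θ' = cf θ := by
  have n0 : ∀ p, (v p / u p) p ≠ 0 := fun p =>
    div_ne_zero (hv p).self_of_nhds.1 (hu p).self_of_nhds.1
  have g : ∀ p, ∀ᶠ q in 𝓝 p, ∀ᶠ x in 𝓝 q, BH2_G (v p / u p) x := fun p =>
    (BH2_ev (hs p) (n0 p)).eventually_nhds
  refine ⟨fun p => θ p + BH2_L (v p / u p), ⟨fun p => sa_of1.1 ?_, fun p => ?_⟩,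
    funext fun x => ?_⟩
  · rw [BH2_add]
    filter_upwards [BH_sa h p, g p] with x a b
    exact a.add (d_dlog (BH2_iff.2 (b.mono fun _ c => c.1)) b.self_of_nhds.2).1
  · filter_upwards [h.2 p, BH2_bun hu p, g p] with q h1 h2 h3
    filter_upwards [h1, h2.eventually_nhds, h3, (g q).self_of_nhds] with x a b c d
    have e : u p / u q * (v p / u p) * (v q / u q)⁻¹ =ᶠ[𝓝 x] v p / v q := by
      filter_upwards [b] with y hy
      obtain ⟨k1, k2⟩ := div_ne_zero_iff.1 hy.2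
      simp only [Pi.mul_apply, Pi.div_apply, Pi.inv_apply, inv_div]
      field_simp
    refine Eq.trans ?_ (BH2_congr e)
    have m := BH2_mul b.self_of_nhds c
    rw [(BH2_mul m.1 (BH2_inv d).1).2, m.2, (BH2_inv d).2, BH2_L, ← a]
    simp only [Pi.add_apply]
    abel
  · obtain ⟨k1, k2⟩ := d_dlog (hs x) (n0 x)
    rw [cf, cf, BH2_add]
    exact congrArg _ ((dF_add (BH_sa h x).self_of_nhds k1).trans
      ((congrArg _ k2).trans (add_zero _)))

end Vale.Agent.P267CW
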