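import Vale.Agent.P267CW.BH
import Vale.Agent.P267CW.BE0

/-! Connections exist: with `exists_pou` for the frame domains `W p = {q | u p q ≠ 0 ∧ SmAt (u p / u q) q}`
put `θ p x = ∑ i, ρ i x • d log (u p / u (p i)) x`. -/

open scoped Manifold ContDiff Topology
open Filter Set Metric MeasureTheory

noncomputable section

namespace Vale.Agent.P267CW

open Vale.Agent.P267F Vale.Agent.P267I

set_option linter.unusedSectionVars false

variable {X : Type} [TopologicalSpace X] [ChartedSpace C2 X] [IsManifold 𝓘(ℂ, C2) ω X] {k : ℕ}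

theorem BI_self (x : X) : (ch x).symm (ch x x) = x := (ch x).left_inv (mem_chart_source C2 x)

theorem BI_ne {g : X → ℂ} {x : X} (h : SmAt g x) (h0 : g x ≠ 0) :
    ∀ᶠ z in 𝓝 (ch x x), g ((ch x).symm z) ≠ 0 :=
  h.self_of_nhds.continuousAt.eventually_ne (by simpa only [Function.comp, BI_self] using h0)

theorem BI_ne' {u : X → X → ℂ} (hu : IsBundle SmAt u) {q x : X}
    (hq : u q x ≠ 0 ∧ SmAt (u q / u x) x) : ∀ᶠ z in 𝓝 (ch x x), u q ((ch x).symm z) ≠ 0 := by
  filter_upwards [BI_ne hq.2 (div_ne_zero hq.1 (hu x).self_of_nhds.1)] with z hz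
  exact (div_ne_zero_iff.1 hz).1

theorem BI_sm {u : X → X → ℂ} (hu : IsBundle SmAt u) {p q x : X}
    (hp : u p x ≠ 0 ∧ SmAt (u p / u x) x) (hq : u q x ≠ 0 ∧ SmAt (u q / u x) x) :
    SmAt (u p / u q) x := by
  have hx := (hu x).self_of_nhds
  filter_upwards [hp.2, hq.2, BI_ne hq.2 (div_ne_zero hq.1 hx.1),
    (BI_ne' hu hx).eventually_nhds] with z h1 h2 h3 h4
  refine (h1.mul (h2.inv h3)).congr_of_eventuallyEq ?_
  filter_upwards [h4] with y hy
  simp only [Function.comp, Pi.div_apply, Pi.inv_apply]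
  rw [← div_eq_mul_inv, div_div_div_cancel_right₀ hy]

theorem BI_dlog {u : X → X → ℂ} (hu : IsBundle SmAt u) {p q r x : X}
    (hp : u p x ≠ 0 ∧ SmAt (u p / u x) x) (hq : u q x ≠ 0 ∧ SmAt (u q / u x) x)
    (hr : u r x ≠ 0 ∧ SmAt (u r / u x) x) :
    ((u p / u r) x)⁻¹ • dAt (u p / u r) x - ((u q / u r) x)⁻¹ • dAt (u q / u r) x =
      ((u p / u q) x)⁻¹ • dAt (u p / u q) x := by
  have h1 := (BI_sm hu hp hq).self_of_nhds.differentiableAt (by simp)
  have h2 := (BI_sm hu hq hr).self_of_nhds.differentiableAt (by simp)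
  have e : (u p / u r) ∘ (ch x).symm =ᶠ[𝓝 (ch x x)]
      ((u p / u q) ∘ (ch x).symm) * ((u q / u r) ∘ (ch x).symm) := by
    filter_upwards [BI_ne' hu hq] with y hy
    simp only [Function.comp, Pi.div_apply, Pi.mul_apply]
    rw [div_mul_div_cancel₀ hy]
  have e' : dAt (u p / u r) x =
      (u p / u q) x • dAt (u q / u r) x + (u q / u r) x • dAt (u p / u q) x := by
    rw [dAt, e.fderiv_eq, fderiv_mul h1 h2]
    simp only [Function.comp, BI_self]
    rfl
  have := hp.1
  have := hq.1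
  have := hr.1
  rw [e']
  ext v
  simp only [Pi.div_apply, sub_apply, smul_apply, add_apply, smul_eq_mul]
  field_simp
  ring

theorem conn_exists (hX : IsSurface X) {u : X → X → ℂ} (hu : IsBundle SmAt u) :
    ∃ θ, IsConnection u θ := by
  obtain ⟨l, p, ρ, h1, h2, h3⟩ :=
    exists_pou hX (fun p => {q | u p q ≠ 0 ∧ SmAt (u p / u q) q}) hu
  refine ⟨fun q x => ∑ i, ρ i x • ((u q / u (p i)) x)⁻¹ • dAt (u q / u (p i)) x,
    fun q => sa_of1.1 ?_, fun q => ?_⟩
  · have e : of1 (fun x => ∑ i, ρ i x • ((u q / u (p i)) x)⁻¹ • dAt (u q / u (p i)) x) =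
        ∑ i, mulF (ρ i) (of1 fun x => ((u q / u (p i)) x)⁻¹ • dAt (u q / u (p i)) x) := by
      funext x
      ext v
      simp [of1, mulF]
    filter_upwards [hu q] with x hx
    rw [e]
    exact sa_sum _ fun i _ => sa_mulF (h1 i) fun hi =>
      (d_dlog (BI_sm hu hx (h2 i hi)) (div_ne_zero hx.1 (h2 i hi).1)).1
  · filter_upwards [(hu q).eventually_nhds] with r hr
    filter_upwards [hr, hu r] with x hx hx'
    have e : ∀ T : C2 →L[ℝ] ℂ, T = ∑ i, ρ i x • T := fun T => by
      ext v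
      simp only [FunLike.coe_sum, Finset.sum_apply, smul_apply]
      rw [← Finset.sum_smul, h3, one_smul]
    rw [← Finset.sum_sub_distrib, e (((u q / u r) x)⁻¹ • dAt (u q / u r) x)]
    refine Finset.sum_congr rfl fun i _ => ?_
    by_cases hi : ρ i x = 0
    · ext v
      simp [hi]
    · rw [← BI_dlog hu hx hx' (h2 i (subset_tsupport _ hi))]
      ext v
      simp only [sub_apply, smul_apply, smul_sub]

end Vale.Agent.P267CW
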