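import Vale.Agent.P267CW.B0

/-! The product of two two-forms is a four-form. -/

open scoped Manifold ContDiff Topology
open Filter Set Metric MeasureTheory

noncomputable section

namespace Vale.Agent.P267CW

open Vale.Agent.P267F Vale.Agent.P267I

set_option linter.unusedSectionVars false

variable {X : Type} [TopologicalSpace X] [ChartedSpace C2 X] [IsManifold 𝓘(ℂ, C2) ω X] {k : ℕ}

/-- Real coordinates. -/
def BK1_e : C2 ≃ₗ[ℝ] (Fin 4 → ℝ) where
  toFun z := ![(z 0).re, (z 0).im, (z 1).re, (z 1).im]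
  invFun c := ![⟨c 0, c 1⟩, ⟨c 2, c 3⟩]
  map_add' z w := by ext i; fin_cases i <;> simp
  map_smul' r z := by ext i; fin_cases i <;> simp
  left_inv z := by ext i; fin_cases i <;> simp
  right_inv c := by ext i; fin_cases i <;> simp

/-- The real basis. -/
def BK1_b : Module.Basis (Fin 4) ℝ C2 := Module.Basis.ofEquivFun BK1_e

theorem BK1_b_eq (a : Fin 4) : BK1_b a = bs a := by
  apply BK1_e.injective
  have : BK1_e (BK1_b a) = Pi.single a 1 := by
    simp [BK1_b, Module.Basis.coe_ofEquivFun]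
  rw [this]
  ext i
  fin_cases a <;> fin_cases i <;> simp [BK1_e, bs]

theorem BK1_swap (A : Alt 2) (v w : C2) : A ![v, w] = -A ![w, v] := by
  have h := A.toAlternatingMap.map_swap ![w, v] (show (0 : Fin 2) ≠ 1 by decide)
  have e : (![w, v] : Fin 2 → C2) ∘ Equiv.swap 0 1 = ![v, w] := by
    ext1 i; fin_cases i <;> simp
  rw [e] at h
  exact h

theorem BK1_self (A : Alt 2) (v : C2) : A ![v, v] = 0 :=
  A.map_eq_zero_of_eq _ (i := 0) (j := 1) rfl (by decide)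

theorem BK1_left (A : Alt 2) (x : Fin 4 → ℝ) (w : C2) :
    A ![∑ c, x c • bs c, w] = ∑ c, (x c : ℂ) * A ![bs c, w] := by
  simp only [Fin.sum_univ_four, A.vecCons_add, A.vecCons_smul, Complex.real_smul]

theorem BK1_exp (A : Alt 2) (x y : Fin 4 → ℝ) :
    A ![∑ c, x c • bs c, ∑ c, y c • bs c] =
      (x 0 * y 1 - x 1 * y 0 : ℂ) * cf2 A 0 1 + (x 0 * y 2 - x 2 * y 0 : ℂ) * cf2 A 0 2 +
      (x 0 * y 3 - x 3 * y 0 : ℂ) * cf2 A 0 3 + (x 1 * y 2 - x 2 * y 1 : ℂ) * cf2 A 1 2 +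
      (x 1 * y 3 - x 3 * y 1 : ℂ) * cf2 A 1 3 + (x 2 * y 3 - x 3 * y 2 : ℂ) * cf2 A 2 3 := by
  have h : ∀ c, A ![bs c, ∑ d, y d • bs d] = -∑ d, (y d : ℂ) * A ![bs d, bs c] := fun c => by
    rw [BK1_swap, BK1_left]
  rw [BK1_left]
  simp only [h]
  simp only [Fin.sum_univ_four, BK1_self, cf2, BK1_swap A (bs 1) (bs 0), BK1_swap A (bs 2) (bs 0),
    BK1_swap A (bs 3) (bs 0), BK1_swap A (bs 2) (bs 1), BK1_swap A (bs 3) (bs 1),
    BK1_swap A (bs 3) (bs 2)]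
  ring

theorem BK1_det (M : Matrix (Fin 4) (Fin 4) ℝ) : M.det =
    (M 0 0 * M 1 1 - M 1 0 * M 0 1) * (M 2 2 * M 3 3 - M 3 2 * M 2 3) -
    (M 0 0 * M 1 2 - M 1 0 * M 0 2) * (M 2 1 * M 3 3 - M 3 1 * M 2 3) +
    (M 0 0 * M 1 3 - M 1 0 * M 0 3) * (M 2 1 * M 3 2 - M 3 1 * M 2 2) +
    (M 0 1 * M 1 2 - M 1 1 * M 0 2) * (M 2 0 * M 3 3 - M 3 0 * M 2 3) -
    (M 0 1 * M 1 3 - M 1 1 * M 0 3) * (M 2 0 * M 3 2 - M 3 0 * M 2 2) +
    (M 0 2 * M 1 3 - M 1 2 * M 0 3) * (M 2 0 * M 3 1 - M 3 0 * M 2 1) := by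
  rw [Matrix.det_succ_row_zero]
  simp [Fin.sum_univ_four, Matrix.det_fin_three, Matrix.submatrix, Fin.succAbove]
  ring

theorem wedge_comp (A B : Alt 2) (L : C2 →L[ℝ] C2) :
    wedge (cf2 (A.compContinuousLinearMap L)) (cf2 (B.compContinuousLinearMap L)) =
      (L.det : ℂ) * wedge (cf2 A) (cf2 B) := by
  set M := LinearMap.toMatrix BK1_b BK1_b (L : C2 →ₗ[ℝ] C2) with hM
  have hd : L.det = M.det := (LinearMap.det_toMatrix BK1_b _).symm
  have hL : ∀ a, L (bs a) = ∑ c, M c a • bs c := fun a => by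
    simp only [hM, LinearMap.toMatrix_apply, ← BK1_b_eq]
    exact (BK1_b.sum_repr _).symm
  have hc : ∀ (D : Alt 2) a b, cf2 (D.compContinuousLinearMap L) a b =
      D ![∑ c, M c a • bs c, ∑ c, M c b • bs c] := fun D a b => by
    rw [← hL, ← hL]
    simp only [cf2, ContinuousAlternatingMap.compContinuousLinearMap_apply]
    congr 1
    ext1 i; fin_cases i <;> rfl
  rw [hd, BK1_det]
  simp only [wedge, hc, BK1_exp]
  push_cast
  ring

theorem det_hol_nonneg (L : C2 →L[ℂ] C2) : 0 ≤ (L.restrictScalars ℝ).det := by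
  have h : (L.restrictScalars ℝ).det = Algebra.norm ℝ (LinearMap.det (L : C2 →ₗ[ℂ] C2)) :=
    LinearMap.det_restrictScalars (R := ℝ) (f := (L : C2 →ₗ[ℂ] C2))
  rw [h, Algebra.norm_complex_apply]
  exact Complex.normSq_nonneg _

end Vale.Agent.P267CW
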