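import Vale.Agent.P267CW.BA

/-! Change of variables between holomorphic charts (`integral_image_eq_integral_abs_det_fderiv_smul`,
transition maps are analytic: apply `HolChart` to the coordinate functions; determinants multiply; `det_hol_nonneg`).
`den P f` is the expression in `P` of the density with value `f x` in the chart at `x`. -/

open scoped Manifold ContDiff Topology
open Filter Set Metric MeasureTheory

noncomputable section

namespace Vale.Agent.P267CW

open Vale.Agent.P267F Vale.Agent.P267I

set_option linter.unusedSectionVars false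

variable {X : Type} [TopologicalSpace X] [ChartedSpace C2 X] [IsManifold 𝓘(ℂ, C2) ω X] {k : ℕ}

/-- A density in the chart `P`. -/
def den (P : OpenPartialHomeomorph X C2) (f : X → ℂ) (z : C2) : ℂ :=
  ((fderiv ℝ (ch (P.symm z) ∘ P.symm) z).det : ℂ) * f (P.symm z)

theorem BK2_ev {E : Type} (g : X → E) {P R : OpenPartialHomeomorph X C2} {x : X}
    (h1 : x ∈ P.source) (h2 : x ∈ R.source) :
    (g ∘ R.symm) ∘ (R ∘ P.symm) =ᶠ[𝓝 (P x)] g ∘ P.symm := by
  filter_upwards [(P.tendsto_symm h1).eventually (R.eventually_left_inverse h2)] with y hy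
  simp only [Function.comp_apply] at hy ⊢
  rw [hy]

theorem BK2_an (g : X → ℂ) {P R : OpenPartialHomeomorph X C2} {x : X} (h1 : x ∈ P.source)
    (h2 : x ∈ R.source) (ht : AnalyticAt ℂ (R ∘ P.symm) (P x))
    (hg : AnalyticAt ℂ (g ∘ R.symm) (R x)) : AnalyticAt ℂ (g ∘ P.symm) (P x) :=
  (hg.comp_of_eq ht (by simp only [Function.comp_apply, P.left_inv h1])).congr (BK2_ev g h1 h2)

theorem holChart_ch (p : X) : HolChart (ch p) := by
  exact fun x hx f =>
    ⟨BK2_an f hx (mem_chart_source C2 x) (Vale.Agent.P267.cn_an hx (mem_chart_source C2 x)),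
      BK2_an f (mem_chart_source C2 x) hx (Vale.Agent.P267.cn_an (mem_chart_source C2 x) hx)⟩

theorem hol_tr {P R : OpenPartialHomeomorph X C2} (hP : HolChart P) (hR : HolChart R) {x : X}
    (h1 : x ∈ P.source) (h2 : x ∈ R.source) : AnalyticAt ℂ (R ∘ P.symm) (P x) := by
  refine analyticAt_pi_iff.2 fun j => (hP x h1 fun y => R y j).1 ((hR x h2 _).2 ?_)
  refine ((ContinuousLinearMap.proj j : C2 →L[ℂ] ℂ).analyticAt (R x)).congr ?_
  filter_upwards [R.eventually_right_inverse' h2] with z hz
  exact (congrFun hz j).symm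

theorem den_change (hd : ∀ L : C2 →L[ℂ] C2, 0 ≤ (L.restrictScalars ℝ).det)
    {P R : OpenPartialHomeomorph X C2} (hP : HolChart P) (hR : HolChart R)
    {f : X → ℂ} (h : Function.support f ⊆ P.source ∩ R.source) :
    ∫ z in P.target, den P f z = ∫ z in R.target, den R f z := by
  have key : ∀ {P R : OpenPartialHomeomorph X C2}, Function.support f ⊆ R.source →
      ∫ z in P.target, den P f z = ∫ z in (P.symm.trans R).source, den P f z := fun {P R} h => by
    refine setIntegral_eq_of_subset_of_forall_sdiff_eq_zero P.open_target.measurableSet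
      (fun z hz => hz.1) fun z hz => ?_
    have : f (P.symm z) = 0 := by
      by_contra h0
      exact hz.2 ⟨hz.1, h h0⟩
    rw [den, this, mul_zero]
  have hT : ∀ z ∈ (P.symm.trans R).source, DifferentiableAt ℂ (R ∘ P.symm) z := fun z hz => by
    have e := (hol_tr hP hR (P.map_target hz.1) hz.2).differentiableAt
    rwa [P.right_inv hz.1] at e
  rw [key (R := R) (h.trans inter_subset_right), key (P := R) (R := P) (h.trans inter_subset_left)]
  have e := integral_target_eq_integral_abs_det_fderiv_smul (volume : Measure C2)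
    (f := P.symm.trans R) (f' := fun z => fderiv ℝ (R ∘ P.symm) z)
    (fun z hz => ((hT z hz).restrictScalars ℝ).hasFDerivAt) (den R f)
  refine Eq.trans ?_ e.symm
  refine setIntegral_congr_fun (P.symm.trans R).open_source.measurableSet fun z hz => ?_
  obtain ⟨x, hx, rfl⟩ : ∃ x ∈ P.source, P x = z := ⟨_, P.map_target hz.1, P.right_inv hz.1⟩
  have hx2 : x ∈ R.source := by
    have e2 : P.symm (P x) ∈ R.source := hz.2
    rwa [P.left_inv hx] at e2
  have e1 : (P.symm.trans R) (P x) = R x := congrArg R (P.left_inv hx)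
  have d1 := (hT _ hz).restrictScalars ℝ
  have d2 : DifferentiableAt ℝ (ch x ∘ R.symm) ((R ∘ P.symm) (P x)) := by
    rw [show (R ∘ P.symm) (P x) = R x from e1]
    exact (hol_tr hR (holChart_ch x) hx2 (mem_chart_source C2 x)).differentiableAt.restrictScalars ℝ
  have e3 := fderiv_comp _ d2 d1
  rw [(BK2_ev (ch x) hx hx2).fderiv_eq, show (R ∘ P.symm) (P x) = R x from e1] at e3
  have e4 : 0 ≤ (fderiv ℝ (R ∘ P.symm) (P x)).det := by
    rw [(hT _ hz).fderiv_restrictScalars ℝ]
    exact hd _
  have e5 : (fderiv ℝ (ch x ∘ P.symm) (P x)).det =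
      (fderiv ℝ (ch x ∘ R.symm) (R x)).det * (fderiv ℝ (R ∘ P.symm) (P x)).det := by
    rw [e3]
    exact LinearMap.det_comp _ _
  simp only [e1, den, P.left_inv hx, R.left_inv hx2, abs_of_nonneg e4, e5, Complex.real_smul]
  push_cast
  ring

end Vale.Agent.P267CW
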