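import Vale.Agent.P267CW.BK1
import Vale.Agent.P267CW.BK2
import Vale.Agent.P267CW.BB

/-! The integral of a product of smooth two-forms. With `f x = wedge (cf2 (A x)) (cf2 (B x))` the integrand in
the chart `P` is `den P f` (`wedge_comp`); it is continuous on the target (compare with `ch`, `sa_iff`); insert the
second partition of unity and use `den_change` on each product `ψ a * ρ i`; integrability from compact support. -/

open scoped Manifold ContDiff Topology
open Filter Set Metric MeasureTheory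

noncomputable section

namespace Vale.Agent.P267CW

open Vale.Agent.P267F Vale.Agent.P267I

set_option linter.unusedSectionVars false

variable {X : Type} [TopologicalSpace X] [ChartedSpace C2 X] [IsManifold 𝓘(ℂ, C2) ω X] {k : ℕ}

variable (G : PU X) {A A' B : Fm X 2}

/-- The expression of a form in a chart. -/
def BK3_pb (P : OpenPartialHomeomorph X C2) (A : Fm X k) (z : C2) : Alt k :=
  (A (P.symm z)).compContinuousLinearMap (fderiv ℝ (ch (P.symm z) ∘ P.symm) z)

/-- The product at a point. -/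
def BK3_F (A B : Fm X 2) (x : X) : ℂ := wedge (cf2 (A x)) (cf2 (B x))

theorem BK3_coef (P : OpenPartialHomeomorph X C2) (A : Fm X 2) (z : C2) :
    coef2 P (to2 A) z = cf2 (BK3_pb P A z) := by
  funext a b
  simp only [coef2, inChart2, to2, cf2, BK3_pb,
    ContinuousAlternatingMap.compContinuousLinearMap_apply]
  congr 1
  funext i
  fin_cases i <;> rfl

theorem BK3_den (P : OpenPartialHomeomorph X C2) (A B : Fm X 2) (z : C2) :
    wedge (cf2 (BK3_pb P A z)) (cf2 (BK3_pb P B z)) = den P (BK3_F A B) z :=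
  wedge_comp _ _ _

theorem BK3_term (P : OpenPartialHomeomorph X C2) (A B : Fm X 2) (φ : X → ℝ) (z : C2) :
    (φ (P.symm z) : ℂ) * wedge (coef2 P (to2 A) z) (coef2 P (to2 B) z) =
      den P (fun x => (φ x : ℂ) * BK3_F A B x) z := by
  rw [BK3_coef, BK3_coef, BK3_den, den, den]
  ring

theorem BK3_tr {P R : OpenPartialHomeomorph X C2} (hP : HolChart P) (hR : HolChart R) {x : X}
    (h1 : x ∈ P.source) (h2 : x ∈ R.source) : ContDiffAt ℝ ∞ (R ∘ P.symm) (P x) :=
  ((hol_tr hP hR h1 h2).contDiffAt (n := ∞)).restrict_scalars ℝ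

theorem BK3_pb_tr {P : OpenPartialHomeomorph X C2} (hP : HolChart P) (A : Fm X k) {q y : X}
    (h1 : y ∈ P.source) (h2 : y ∈ (ch q).source) :
    BK3_pb P A (P y) =
      (inC q A (ch q y)).compContinuousLinearMap (fderiv ℝ (ch q ∘ P.symm) (P y)) := by
  have hy := mem_chart_source C2 y
  have d1 : DifferentiableAt ℝ (ch q ∘ P.symm) (P y) :=
    (BK3_tr hP (holChart_ch q) h1 h2).differentiableAt (by simp)
  have d2 : DifferentiableAt ℝ (ch y ∘ (ch q).symm) (ch q y) :=
    (tr_sm h2 hy).differentiableAt (by simp)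
  have e0 : (ch q ∘ P.symm) (P y) = ch q y := by
    simp only [Function.comp_apply, P.left_inv h1]
  have e := (BK2_ev (ch y) h1 h2).fderiv_eq (𝕜 := ℝ)
  rw [fderiv_comp _ (by rw [e0]; exact d2) d1, e0] at e
  unfold BK3_pb inC
  rw [P.left_inv h1, (ch q).left_inv h2, ← e]
  ext v
  rfl

theorem BK3_cont {P : OpenPartialHomeomorph X C2} (hP : HolChart P) {A : Fm X k}
    (hA : SmOn univ A) : ContinuousOn (BK3_pb P A) P.target := by
  intro z hz
  obtain ⟨x, hx, rfl⟩ : ∃ x ∈ P.source, P x = z := ⟨_, P.map_target hz, P.right_inv hz⟩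
  have hx' := mem_chart_source C2 x
  have t := BK3_tr hP (holChart_ch x) hx hx'
  have e0 : (ch x ∘ P.symm) (P x) = ch x x := by
    simp only [Function.comp_apply, P.left_inv hx]
  have h1 : ContDiffAt ℝ ∞ (fun z => inC x A ((ch x ∘ P.symm) z)) (P x) :=
    ContDiffAt.comp (g := inC x A) _ (by rw [e0]; exact hA x trivial) t
  have h2 : ContDiffAt ℝ ∞ (fderiv ℝ (ch x ∘ P.symm)) (P x) := t.fderiv_right (m := ∞) (by simp)
  refine ((BA_cd_pull h1 h2).continuousAt.congr ?_).continuousWithinAt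
  filter_upwards [(P.tendsto_symm hx).eventually ((ch x).open_source.mem_nhds hx'),
    P.open_target.mem_nhds hz] with w hw ht
  have h := BK3_pb_tr hP A (P.map_target ht) hw
  rw [P.right_inv ht] at h
  exact h.symm

theorem BK3_cden {P : OpenPartialHomeomorph X C2} (hP : HolChart P) {A B : Fm X 2}
    (hA : SmOn univ A) (hB : SmOn univ B) : ContinuousOn (den P (BK3_F A B)) P.target := by
  have ev : ∀ {A : Fm X 2}, SmOn univ A → ∀ a b,
      ContinuousOn (fun z => cf2 (BK3_pb P A z) a b) P.target := fun h a b =>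
    (continuous_eval_const (![bs a, bs b] : Fin 2 → C2)).comp_continuousOn (BK3_cont hP h)
  have e : den P (BK3_F A B) = fun z => wedge (cf2 (BK3_pb P A z)) (cf2 (BK3_pb P B z)) :=
    funext fun z => (BK3_den P A B z).symm
  rw [e]
  unfold wedge
  exact ((((((ev hA _ _).mul (ev hB _ _)).sub ((ev hA _ _).mul (ev hB _ _))).add
    ((ev hA _ _).mul (ev hB _ _))).add ((ev hA _ _).mul (ev hB _ _))).sub
    ((ev hA _ _).mul (ev hB _ _))).add ((ev hA _ _).mul (ev hB _ _))

theorem BK3_cmul {P : OpenPartialHomeomorph X C2} {f : X → ℂ} {φ : X → ℝ} (hφ : Continuous φ)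
    (hc : ContinuousOn (den P f) P.target) :
    ContinuousOn (den P fun x => (φ x : ℂ) * f x) P.target := by
  have e : (den P fun x => (φ x : ℂ) * f x) = fun z => (φ (P.symm z) : ℂ) * den P f z := by
    funext z
    rw [den, den]
    ring
  rw [e]
  exact ((Complex.continuous_ofReal.comp hφ).comp_continuousOn P.continuousOn_symm).mul hc

theorem BK3_int {P : OpenPartialHomeomorph X C2} {f : X → ℂ} {K : Set X}
    (hc : ContinuousOn (den P f) P.target) (hK : IsCompact K) (hs : K ⊆ P.source)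
    (hz : ∀ x ∉ K, f x = 0) : IntegrableOn (den P f) P.target := by
  have hK' : IsCompact (P '' K) := hK.image_of_continuousOn (P.continuousOn.mono hs)
  have hsub : P '' K ⊆ P.target := by
    rintro _ ⟨x, hx, rfl⟩
    exact P.map_source (hs hx)
  refine ((hc.mono hsub).integrableOn_compact hK').of_forall_sdiff_eq_zero
    P.open_target.measurableSet fun z hz' => ?_
  have : f (P.symm z) = 0 := hz _ fun h => hz'.2 ⟨_, h, P.right_inv hz'.1⟩
  rw [den, this, mul_zero]

theorem BK3_split {P : OpenPartialHomeomorph X C2} {f : X → ℂ} {K : Set X} {l : ℕ}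
    {ρ : Fin l → X → ℝ} (hρ : ∀ i, Continuous (ρ i)) (h1 : ∀ x, ∑ i, ρ i x = 1)
    (hc : ContinuousOn (den P f) P.target) (hK : IsCompact K) (hs : K ⊆ P.source)
    (hz : ∀ x ∉ K, f x = 0) :
    ∫ z in P.target, den P f z = ∑ i, ∫ z in P.target, den P (fun x => (ρ i x : ℂ) * f x) z := by
  rw [← integral_finsetSum _ fun i _ =>
    BK3_int (BK3_cmul (hρ i) hc) hK hs fun x hx => by rw [hz x hx, mul_zero]]
  congr 1
  funext z
  simp only [den]
  rw [← Finset.mul_sum, ← Finset.sum_mul, ← Complex.ofReal_sum, h1, Complex.ofReal_one, one_mul]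

theorem BK3_off {φ : X → ℝ} (f : X → ℂ) : ∀ x ∉ tsupport φ, (φ x : ℂ) * f x = 0 := fun x hx => by
  rw [image_eq_zero_of_notMem_tsupport hx, Complex.ofReal_zero, zero_mul]

theorem BK3_W (G : PU X) (A B : Fm X 2) : G.W A B =
    ∑ i, ∫ z in (ch (G.p i)).target, den (ch (G.p i)) (fun x => (G.ρ i x : ℂ) * BK3_F A B x) z := by
  unfold PU.W
  simp only [BK3_term]

theorem PU.int2 (hX : IsSurface X) (hA : SmOn univ A) (hB : SmOn univ B) :
    Int2 (to2 A) (to2 B) (G.W A B) := by
  intro l P ψ hP hψ hs h1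
  have := hX.2.2.1
  have hρ : ∀ i, Continuous (G.ρ i) := fun i => (G.ρ_sm i).cont
  rw [BK3_W]
  simp only [BK3_term]
  rw [Finset.sum_congr rfl fun a _ => BK3_split hρ G.ρ_sum (BK3_cmul (hψ a) (BK3_cden (hP a) hA hB))
      (isClosed_tsupport _).isCompact (hs a) (BK3_off _),
    Finset.sum_congr rfl fun i _ => BK3_split hψ h1
      (BK3_cmul (hρ i) (BK3_cden (holChart_ch (G.p i)) hA hB))
      (isClosed_tsupport _).isCompact (G.ρ_supp i) (BK3_off _), Finset.sum_comm]
  refine Finset.sum_congr rfl fun i _ => Finset.sum_congr rfl fun a _ => ?_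
  rw [den_change det_hol_nonneg (hP a) (holChart_ch (G.p i)) fun x hx => ?_]
  · simp only [mul_left_comm]
  · refine ⟨hs a ?_, G.ρ_supp i ?_⟩
    · by_contra h
      exact hx (by simp only [BK3_off _ x h, mul_zero])
    · by_contra h
      exact hx (BK3_off (fun x => (ψ a x : ℂ) * BK3_F A B x) x h)

theorem PU.W_chart (hX : IsSurface X) (hA : SmOn univ A) (hB : SmOn univ B) {p : X}
    (h : tsupport A ⊆ (ch p).source) :
    G.W A B = ∫ z in (ch p).target, wedge (cf2 (inC p A z)) (cf2 (inC p B z)) := by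
  have := hX.2.2.1
  have hρ : ∀ i, Continuous (G.ρ i) := fun i => (G.ρ_sm i).cont
  have hz : ∀ x ∉ tsupport A, BK3_F A B x = 0 := fun x hx => by
    simp [BK3_F, image_eq_zero_of_notMem_tsupport hx, wedge, cf2]
  have e : (fun z => wedge (cf2 (inC p A z)) (cf2 (inC p B z))) = den (ch p) (BK3_F A B) :=
    funext fun z => BK3_den (ch p) A B z
  rw [BK3_W, e, BK3_split hρ G.ρ_sum (BK3_cden (holChart_ch p) hA hB)
    (isClosed_tsupport _).isCompact h hz]
  refine Finset.sum_congr rfl fun i _ =>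
    den_change det_hol_nonneg (holChart_ch _) (holChart_ch _) fun x hx => ⟨G.ρ_supp i ?_, h ?_⟩
  · by_contra h
    exact hx (BK3_off _ x h)
  · by_contra h
    exact hx (by simp only [hz x h, mul_zero])

theorem PU.W_comm (A B : Fm X 2) : G.W A B = G.W B A := by
  have e : BK3_F A B = BK3_F B A := by
    funext x
    simp only [BK3_F, wedge]
    ring
  rw [BK3_W, BK3_W, e]

theorem PU.W_add (hX : IsSurface X) (hA : SmOn univ A) (hA' : SmOn univ A') (hB : SmOn univ B) :
    G.W (A + A') B = G.W A B + G.W A' B := by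
  have := hX.2.2.1
  have hρ : ∀ i, Continuous (G.ρ i) := fun i => (G.ρ_sm i).cont
  rw [BK3_W, BK3_W, BK3_W, ← Finset.sum_add_distrib]
  refine Finset.sum_congr rfl fun i _ => ?_
  rw [← integral_add (BK3_int (BK3_cmul (hρ i) (BK3_cden (holChart_ch _) hA hB))
      (isClosed_tsupport _).isCompact (G.ρ_supp i) (BK3_off _))
    (BK3_int (BK3_cmul (hρ i) (BK3_cden (holChart_ch _) hA' hB))
      (isClosed_tsupport _).isCompact (G.ρ_supp i) (BK3_off _))]
  congr 1
  funext z
  simp only [den, BK3_F, wedge, cf2, Pi.add_apply, ContinuousAlternatingMap.add_apply]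
  ring

theorem PU.W_smul (c : ℂ) (A B : Fm X 2) : G.W (c • A) B = c * G.W A B := by
  rw [BK3_W, BK3_W, Finset.mul_sum]
  refine Finset.sum_congr rfl fun i _ => ?_
  rw [← integral_const_mul]
  congr 1
  funext z
  simp only [den, BK3_F, wedge, cf2, Pi.smul_apply, ContinuousAlternatingMap.smul_apply,
    smul_eq_mul]
  ring

theorem PU.W_real (h : Real2 (to2 A)) (h' : Real2 (to2 B)) : (G.W A B).im = 0 := by
  have hF : ∀ x, (BK3_F A B x).im = 0 := fun x => by
    have a : ∀ i j, (cf2 (A x) i j).im = 0 := fun i j => h x _ _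
    have b : ∀ i j, (cf2 (B x) i j).im = 0 := fun i j => h' x _ _
    simp [BK3_F, wedge, a, b]
  rw [BK3_W, Complex.im_sum]
  refine Finset.sum_eq_zero fun i _ => ?_
  have e : den (ch (G.p i)) (fun x => (G.ρ i x : ℂ) * BK3_F A B x) = fun z =>
      (((den (ch (G.p i)) (fun x => (G.ρ i x : ℂ) * BK3_F A B x) z).re : ℝ) : ℂ) := by
    funext z
    refine (Complex.conj_eq_iff_re.1 (Complex.conj_eq_iff_im.2 ?_)).symm
    simp [den, hF]
  rw [e, integral_complex_ofReal, Complex.ofReal_im]

end Vale.Agent.P267CW
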