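import Vale.Agent.P267CW.BL1
import Vale.Agent.P267CW.BK3

/-! Stokes on the surface: `η = ∑ i, mulF (ρ i) η`, `W_add`, `W_chart` in the chart at `p i`, and `stokes_aff` for the
indicator of the target times `inC p (mulF (ρ i) η)`. -/

open scoped Manifold ContDiff Topology
open Filter Set Metric MeasureTheory

noncomputable section

namespace Vale.Agent.P267CW

open Vale.Agent.P267F Vale.Agent.P267I

set_option linter.unusedSectionVars false

variable {X : Type} [TopologicalSpace X] [ChartedSpace C2 X] [IsManifold 𝓘(ℂ, C2) ω X] {k : ℕ}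

theorem BL_zero (p : X) {A : Fm X k} {z : C2} (h : A ((ch p).symm z) = 0) : inC p A z = 0 := by
  ext v
  simp [inC, h]

theorem BL_one (G : PU X) (hX : IsSurface X) {η : Fm X 1} {B : Fm X 2} (hη : SmOn univ η)
    (hB : Cls B) {p : X} (hs : tsupport η ⊆ (ch p).source) : G.W (dF η) B = 0 := by
  have := hX.2.2.1
  have hd : tsupport (dF η) ⊆ tsupport η := by
    refine closure_minimal (fun x hx => ?_) (isClosed_tsupport η)
    by_contra h
    exact hx (by rw [dF_congr (notMem_tsupport_iff_eventuallyEq.1 h), dF_zero]; rfl)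
  rw [G.W_chart hX (hη.dF isOpen_univ) hB.1 (hd.trans hs)]
  have hK : IsCompact (ch p '' tsupport η) :=
    (isClosed_tsupport η).isCompact.image_of_continuousOn ((ch p).continuousOn.mono hs)
  have hKt : ch p '' tsupport η ⊆ (ch p).target := by
    rintro _ ⟨x, hx, rfl⟩
    exact (ch p).map_source (hs hx)
  have hsup : tsupport ((ch p).target.indicator (inC p η)) ⊆ ch p '' tsupport η := by
    refine closure_minimal (fun z hz => ?_) hK.isClosed
    have hz' : z ∈ (ch p).target := by
      by_contra h
      exact hz (indicator_of_notMem h _)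
    refine ⟨(ch p).symm z, subset_tsupport _ fun h0 => hz ?_, (ch p).right_inv hz'⟩
    rw [indicator_of_mem hz', BL_zero p h0]
  have hev : ∀ z ∈ (ch p).target, (ch p).target.indicator (inC p η) =ᶠ[𝓝 z] inC p η :=
    fun z hz => by
      filter_upwards [(ch p).open_target.mem_nhds hz] with y hy using indicator_of_mem hy _
  have hsm : ∀ {j : ℕ} {D : Fm X j}, SmOn univ D → ∀ z ∈ (ch p).target,
      ContDiffAt ℝ ∞ (inC p D) z := fun hD z hz => by
    have := (sa_iff ((ch p).map_target hz)).1 (hD _ (mem_univ _))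
    rwa [(ch p).right_inv hz] at this
  have hdf : ∀ {j : ℕ} {D : Fm X j}, SmOn univ D → ∀ z ∈ (ch p).target,
      inC p (dF D) z = extDeriv (inC p D) z := fun hD z hz => by
    have := inC_dF ((ch p).map_target hz) (hD _ (mem_univ _))
    rwa [(ch p).right_inv hz] at this
  rw [← stokes_aff (η := (ch p).target.indicator (inC p η)) (B := inC p B) (ch p).open_target
    (contDiff_iff_contDiffAt.2 fun z => ?_) (hK.of_isClosed_subset (isClosed_tsupport _) hsup)
    (hsup.trans hKt) (hsm hB.1) fun z hz => ?_]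
  · refine setIntegral_congr_fun (ch p).open_target.measurableSet fun z hz => ?_
    simp only [hdf hη z hz, (hev z hz).extDeriv_eq]
  · by_cases hz : z ∈ (ch p).target
    · exact (hsm hη z hz).congr_of_eventuallyEq (hev z hz)
    · exact contDiffAt_const.congr_of_eventuallyEq
        (notMem_tsupport_iff_eventuallyEq.1 fun h => hz (hKt (hsup h)))
  · rw [← hdf hB.1 z hz, hB.2]
    exact BL_zero p rfl

theorem BL_sum (G : PU X) (hX : IsSurface X) {ι : Type} (s : Finset ι) {A : ι → Fm X 2}
    {B : Fm X 2} (hA : ∀ i, SmOn univ (A i)) (hB : SmOn univ B) (h : ∀ i, G.W (A i) B = 0) :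
    G.W (∑ i ∈ s, A i) B = 0 := by
  classical
  induction s using Finset.induction_on with
  | empty =>
    have e : (0 : ℂ) • (0 : Fm X 2) = 0 := by
      funext x
      ext v
      simp
    rw [Finset.sum_empty, ← e, G.W_smul, zero_mul]
  | insert a s ha ih =>
    rw [Finset.sum_insert ha, G.W_add hX (hA a) (fun x hx => sa_sum _ fun i _ => hA i x hx) hB,
      h, ih, add_zero]

theorem PU.W_exa (G : PU X) (hX : IsSurface X) {A B : Fm X 2} (hA : Exa A) (hB : Cls B) :
    G.W A B = 0 := by
  obtain ⟨η, hη, rfl⟩ := hA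
  have hm : ∀ i, SmOn univ (mulF (G.ρ i) η) := fun i x hx => (hη x hx).mulF (G.ρ_sm i)
  have e : η = ∑ i, mulF (G.ρ i) η := by
    funext x
    rw [Finset.sum_apply]
    simp only [mulF]
    rw [← Finset.sum_smul, G.ρ_sum, one_smul]
  have e' : dF η = ∑ i, dF (mulF (G.ρ i) η) := by
    funext x
    rw [Finset.sum_apply, ← dF_sum _ fun i _ => hm i x (mem_univ _), ← e]
  rw [e']
  refine BL_sum G hX _ (fun i => (hm i).dF isOpen_univ) hB.1 fun i =>
    BL_one G hX (hm i) hB (Subset.trans ?_ (G.ρ_supp i))
  refine closure_mono fun x hx h0 => hx ?_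
  ext v
  simp [mulF, h0]

end Vale.Agent.P267CW
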