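import Vale.Agent.P267CW.B0

/-! Stokes on affine space. With `η_a = η ![bs a]`, `B_ab = cf2 B a b`, the integrand is
`∑ ± ∂_a (η_b B_cd)` plus `η_b` times the coefficients of `extDeriv B`, which vanish; every `η_b B_cd` is smooth with compact
support, `integral_fderiv_eq_zero`-type lemma as `P253.int_fd` (`integral_mul_fderiv_eq_neg_fderiv_mul_of_integrable`). -/

open scoped Manifold ContDiff Topology
open Filter Set Metric MeasureTheory

noncomputable section

namespace Vale.Agent.P267CW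

open Vale.Agent.P267F Vale.Agent.P267I

set_option linter.unusedSectionVars false

variable {X : Type} [TopologicalSpace X] [ChartedSpace C2 X] [IsManifold 𝓘(ℂ, C2) ω X] {k : ℕ}

/-- Integrable on `O` with integral zero. -/
def BL1_Z (O : Set C2) (f : C2 → ℂ) : Prop := IntegrableOn f O ∧ ∫ z in O, f z = 0

theorem BL1_add {O : Set C2} {f g : C2 → ℂ} (hf : BL1_Z O f) (hg : BL1_Z O g) :
    BL1_Z O fun z => f z + g z :=
  ⟨hf.1.add hg.1, by rw [integral_add hf.1 hg.1, hf.2, hg.2, add_zero]⟩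

theorem BL1_sub {O : Set C2} {f g : C2 → ℂ} (hf : BL1_Z O f) (hg : BL1_Z O g) :
    BL1_Z O fun z => f z - g z :=
  ⟨hf.1.sub hg.1, by rw [integral_sub hf.1 hg.1, hf.2, hg.2, sub_zero]⟩

theorem BL1_int {h : C2 → ℂ} (hh : ContDiff ℝ 1 h) (hc : HasCompactSupport h) (v : C2) :
    Integrable (fun z => fderiv ℝ h z v) ∧ ∫ z, fderiv ℝ h z v = 0 := by
  have hi : Integrable (fun z => fderiv ℝ h z v) :=
    ((hh.continuous_fderiv one_ne_zero).clm_apply continuous_const).integrable_of_hasCompactSupport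
      (hc.fderiv_apply ℝ v)
  refine ⟨hi, ?_⟩
  have := integral_mul_fderiv_eq_neg_fderiv_mul_of_integrable (μ := volume) (𝕜 := ℂ)
    (f := fun _ : C2 => (1 : ℂ)) (g := h) (v := v) (by simp) (by simpa using hi)
    (by simpa using hh.continuous.integrable_of_hasCompactSupport hc)
    (fun _ _ => differentiableAt_const _) (fun _ _ => hh.differentiable one_ne_zero _)
  simpa using this

theorem BL1_key {O : Set C2} (hO : IsOpen O) {f g : C2 → ℂ} (hf : ContDiff ℝ 1 f)
    (hc : HasCompactSupport f) (hs : tsupport f ⊆ O) (hg : ∀ z ∈ O, ContDiffAt ℝ 1 g z) (v : C2) :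
    BL1_Z O fun z => fderiv ℝ f z v * g z + f z * fderiv ℝ g z v := by
  have h0 : ∀ z, z ∉ O → (fun y => f y * g y) =ᶠ[𝓝 z] fun _ => 0 := fun z hz =>
    (notMem_tsupport_iff_eventuallyEq.1 fun h => hz (hs h)).mono fun y hy => by
      simp only [Pi.zero_apply] at hy
      simp [hy]
  have h1 : ContDiff ℝ 1 fun y => f y * g y := contDiff_iff_contDiffAt.2 fun z => by
    by_cases hz : z ∈ O
    · exact hf.contDiffAt.mul (hg z hz)
    · exact contDiffAt_const.congr_of_eventuallyEq (h0 z hz)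
  obtain ⟨i1, i2⟩ := BL1_int h1 hc.mul_right v
  have e : EqOn (fun z => fderiv ℝ (fun y => f y * g y) z v)
      (fun z => fderiv ℝ f z v * g z + f z * fderiv ℝ g z v) O := fun z hz => by
    simp only
    rw [fderiv_fun_mul (hf.differentiable one_ne_zero z) ((hg z hz).differentiableAt one_ne_zero)]
    simp only [ContinuousLinearMap.add_apply, ContinuousLinearMap.smul_apply, smul_eq_mul]
    ring
  refine ⟨i1.integrableOn.congr_fun e hO.measurableSet, ?_⟩
  rw [← setIntegral_congr_fun hO.measurableSet e, setIntegral_eq_integral_of_forall_compl_eq_zero,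
    i2]
  intro z hz
  rw [(h0 z hz).fderiv_eq]
  simp

theorem stokes_aff {η : C2 → Alt 1} {B : C2 → Alt 2} {O : Set C2} (hO : IsOpen O)
    (hη : ContDiff ℝ ∞ η) (hc : HasCompactSupport η) (hs : tsupport η ⊆ O)
    (hB : ∀ z ∈ O, ContDiffAt ℝ ∞ B z) (h0 : ∀ z ∈ O, extDeriv B z = 0) :
    ∫ z in O, wedge (cf2 (extDeriv η z)) (cf2 (B z)) = 0 := by
  have T : ∀ a b c d : Fin 4, BL1_Z O fun z =>
      fderiv ℝ (fun y => η y ![bs b]) z (bs a) * B z ![bs c, bs d] +
        η z ![bs b] * fderiv ℝ (fun y => B y ![bs c, bs d]) z (bs a) := fun a b c d =>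
    BL1_key hO (f := fun y => η y ![bs b]) (g := fun y => B y ![bs c, bs d])
      ((ContinuousAlternatingMap.apply ℝ C2 ℂ ![bs b]).contDiff.comp (hη.of_le (by simp)))
      (hc.comp_left (g := fun A : Alt 1 => A ![bs b]) rfl)
      ((tsupport_comp_subset (g := fun A : Alt 1 => A ![bs b]) rfl η).trans hs)
      (fun z hz => (ContinuousAlternatingMap.apply ℝ C2 ℂ ![bs c, bs d]).contDiff.contDiffAt.comp z
        ((hB z hz).of_le (by simp))) (bs a)
  have e1 : ∀ z a b, cf2 (extDeriv η z) a b = fderiv ℝ (fun y => η y ![bs b]) z (bs a) -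
      fderiv ℝ (fun y => η y ![bs a]) z (bs b) := fun z a b => by
    have r0 : Fin.removeNth (0 : Fin 2) ![bs a, bs b] = ![bs b] := by
      funext i; fin_cases i; rfl
    have r1 : Fin.removeNth (1 : Fin 2) ![bs a, bs b] = ![bs a] := by
      funext i; fin_cases i; rfl
    rw [cf2, extDeriv_apply (hη.differentiable (by simp) z), Fin.sum_univ_two, r0, r1]
    simp [sub_eq_add_neg]
  have e2 : ∀ z ∈ O, ∀ a b c, fderiv ℝ (fun y => B y ![bs b, bs c]) z (bs a) -
      fderiv ℝ (fun y => B y ![bs a, bs c]) z (bs b) +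
      fderiv ℝ (fun y => B y ![bs a, bs b]) z (bs c) = 0 := fun z hz a b c => by
    have r0 : Fin.removeNth (0 : Fin 3) ![bs a, bs b, bs c] = ![bs b, bs c] := by
      funext i; fin_cases i <;> rfl
    have r1 : Fin.removeNth (1 : Fin 3) ![bs a, bs b, bs c] = ![bs a, bs c] := by
      funext i; fin_cases i <;> rfl
    have r2 : Fin.removeNth (2 : Fin 3) ![bs a, bs b, bs c] = ![bs a, bs b] := by
      funext i; fin_cases i <;> rfl
    have := extDeriv_apply ((hB z hz).differentiableAt (by simp)) ![bs a, bs b, bs c]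
    rw [h0 z hz, Fin.sum_univ_three, r0, r1, r2] at this
    simpa [sub_eq_add_neg] using this.symm
  have Z := (BL1_add (BL1_sub (BL1_add (BL1_add (BL1_sub (BL1_sub (T 0 1 2 3) (T 1 0 2 3))
    (BL1_sub (T 0 2 1 3) (T 2 0 1 3))) (BL1_sub (T 0 3 1 2) (T 3 0 1 2)))
    (BL1_sub (T 1 2 0 3) (T 2 1 0 3))) (BL1_sub (T 1 3 0 2) (T 3 1 0 2)))
    (BL1_sub (T 2 3 0 1) (T 3 2 0 1))).2
  rw [← Z]
  refine setIntegral_congr_fun hO.measurableSet fun z hz => ?_
  simp only [wedge, e1]
  simp only [cf2]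
  linear_combination η z ![bs 0] * e2 z hz 1 2 3 - η z ![bs 1] * e2 z hz 0 2 3 +
    η z ![bs 2] * e2 z hz 0 1 3 - η z ![bs 3] * e2 z hz 0 1 2

end Vale.Agent.P267CW
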