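import Vale.Agent.P267CW.BH
import Vale.Agent.P267CW.BK2

/-! Bridge to the forms of the statement. `inChart2 (ch p) (to2 A) z v w = inC p A z ![v, w]` by `rfl`;
an alternating bilinear map is a form of degree two; smoothness is read on coefficients; `extDeriv_apply` with
`Fin.sum_univ_succ` gives `extD2` and `extD`. -/

open scoped Manifold ContDiff Topology
open Filter Set Metric MeasureTheory

noncomputable section

namespace Vale.Agent.P267CW

open Vale.Agent.P267F Vale.Agent.P267I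

set_option linter.unusedSectionVars false

variable {X : Type} [TopologicalSpace X] [ChartedSpace C2 X] [IsManifold 𝓘(ℂ, C2) ω X] {k : ℕ}

theorem BM_v1 (v : Fin 1 → C2) : v = ![v 0] := by
  funext i; fin_cases i; rfl

theorem BM_v2 (v : Fin 2 → C2) : v = ![v 0, v 1] := by
  funext i; fin_cases i <;> rfl

theorem BM_v3 (v : Fin 3 → C2) : v = ![v 0, v 1, v 2] := by
  funext i; fin_cases i <;> rfl

theorem BM_sm {F : C2 → Alt k} {z : C2} (h : ∀ v, ContDiffAt ℝ ∞ (fun y => F y v) z) :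
    ContDiffAt ℝ ∞ F z := by
  let b := Module.finBasis ℝ C2
  let e : Alt k →ₗ[ℝ] ((Fin k → Fin (Module.finrank ℝ C2)) → ℂ) :=
    { toFun := fun A I => A (fun i => b (I i))
      map_add' := fun _ _ => rfl
      map_smul' := fun _ _ => rfl }
  have he : LinearMap.ker e = ⊥ := by
    rw [LinearMap.ker_eq_bot']
    intro A hA
    apply ContinuousAlternatingMap.toAlternatingMap_injective
    apply Module.Basis.ext_alternating b
    intro v _
    exact congrFun hA v
  obtain ⟨g, hg⟩ := e.exists_leftInverse_of_injective he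
  have hF : F = fun y => LinearMap.toContinuousLinearMap g (fun I => F y (fun i => b (I i))) := by
    funext y
    exact (LinearMap.congr_fun hg (F y)).symm
  rw [hF]
  exact (LinearMap.toContinuousLinearMap g).contDiff.contDiffAt.comp z
    (contDiffAt_pi.2 fun I => h _)

theorem BM_ap {F : C2 → Alt k} {z : C2} (h : ContDiffAt ℝ ∞ F z) (v : Fin k → C2) :
    ContDiffAt ℝ ∞ (fun y => F y v) z :=
  (ContinuousAlternatingMap.apply ℝ C2 ℂ v).contDiff.contDiffAt.comp z h

theorem BM_swap (A : Alt 2) (v w : C2) : A ![w, v] = -A ![v, w] := by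
  have h := A.toAlternatingMap.map_swap ![v, w] (i := 0) (j := 1) (by decide)
  have e : (![v, w] ∘ Equiv.swap (0 : Fin 2) 1) = ![w, v] := by
    funext i; fin_cases i <;> rfl
  rw [e] at h
  exact h

theorem BM_alt (B : C2 →L[ℝ] C2 →L[ℝ] ℂ) (h : ∀ v, B v v = 0) :
    ∃ A : Alt 2, ∀ v w, A ![v, w] = B v w := by
  let L : (C2 →L[ℝ] ℂ) →L[ℝ] Alt 1 :=
    (ContinuousAlternatingMap.ofSubsingletonLIE (𝕜 := ℝ) (E := C2) (F := ℂ)
      (0 : Fin 1)).toContinuousLinearEquiv.toContinuousLinearMap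
  have hL : ∀ (f : C2 →L[ℝ] ℂ) (v : Fin 1 → C2), L f v = f (v 0) := fun _ _ => rfl
  refine ⟨(2⁻¹ : ℂ) • ContinuousAlternatingMap.alternatizeUncurryFin (L.comp B), fun v w => ?_⟩
  have a : B w v = -B v w := by
    have h1 := h (v + w)
    simp only [map_add, ContinuousLinearMap.add_apply, h v, h w] at h1
    linear_combination h1
  have e0 : (Fin.removeNth (0 : Fin 2) ![v, w] : Fin 1 → C2) 0 = w := rfl
  have e1 : (Fin.removeNth (1 : Fin 2) ![v, w] : Fin 1 → C2) 0 = v := rfl
  rw [ContinuousAlternatingMap.smul_apply, ContinuousAlternatingMap.alternatizeUncurryFin_apply,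
    Fin.sum_univ_two, ContinuousLinearMap.comp_apply, ContinuousLinearMap.comp_apply, hL, hL, e0, e1]
  have e2 : (![v, w] : Fin 2 → C2) 0 = v := rfl
  have e3 : (![v, w] : Fin 2 → C2) 1 = w := rfl
  rw [e2, e3, a]
  simp
  ring

theorem BM_bil (A : Alt 2) : ∃ B : C2 →L[ℝ] C2 →L[ℝ] ℂ, (∀ v, B v v = 0) ∧
    ∀ v w, A ![v, w] = B v w := by
  let L : Alt 1 →L[ℝ] (C2 →L[ℝ] ℂ) :=
    (ContinuousAlternatingMap.ofSubsingletonLIE (𝕜 := ℝ) (E := C2) (F := ℂ)
      (0 : Fin 1)).symm.toContinuousLinearEquiv.toContinuousLinearMap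
  have hL : ∀ (f : Alt 1) (w : C2), L f w = f (fun _ => w) := fun _ _ => rfl
  have hB : ∀ v w, A ![v, w] = L.comp A.curryLeft v w := by
    intro v w
    rw [ContinuousLinearMap.comp_apply, hL, ContinuousAlternatingMap.curryLeft_apply_apply]
    congr 1
    funext i; fin_cases i <;> rfl
  refine ⟨L.comp A.curryLeft, fun v => ?_, hB⟩
  rw [← hB]
  exact A.map_eq_zero_of_eq _ (i := 0) (j := 1) rfl (by decide)

theorem BM_inC2 (p : X) (A : Fm X 2) (z v w : C2) :
    inChart2 (ch p) (to2 A) z v w = inC p A z ![v, w] := by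
  unfold inChart2 to2 inC
  rw [ContinuousAlternatingMap.compContinuousLinearMap_apply]
  congr 1
  funext i; fin_cases i <;> rfl

theorem BM_d1 {F : C2 → Alt 1} {G : C2 → C2 →L[ℝ] ℂ} {z : C2} (h : DifferentiableAt ℝ F z)
    (e : ∀ y v, F y v = G y (v 0)) (v w : C2) : extDeriv F z ![v, w] = extD G z v w := by
  rw [extDeriv_apply h, Fin.sum_univ_two]
  have e0 : (fun y => F y (Fin.removeNth (0 : Fin 2) ![v, w])) = fun y => G y w :=
    funext fun y => e y _
  have e1 : (fun y => F y (Fin.removeNth (1 : Fin 2) ![v, w])) = fun y => G y v :=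
    funext fun y => e y _
  have e2 : (![v, w] : Fin 2 → C2) 0 = v := rfl
  have e3 : (![v, w] : Fin 2 → C2) 1 = w := rfl
  rw [e0, e1, e2, e3, extD]
  simp [sub_eq_add_neg]

theorem BM_d2 {F : C2 → Alt 2} {G : C2 → C2 → C2 → ℂ} {z : C2} (h : DifferentiableAt ℝ F z)
    (e : ∀ y v w, G y v w = F y ![v, w]) (u v w : C2) :
    extDeriv F z ![u, v, w] = extD2 G z u v w := by
  rw [extDeriv_apply h, Fin.sum_univ_three]
  have r0 : (Fin.removeNth (0 : Fin 3) ![u, v, w] : Fin 2 → C2) = ![v, w] := by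
    funext i; fin_cases i <;> rfl
  have r1 : (Fin.removeNth (1 : Fin 3) ![u, v, w] : Fin 2 → C2) = ![u, w] := by
    funext i; fin_cases i <;> rfl
  have r2 : (Fin.removeNth (2 : Fin 3) ![u, v, w] : Fin 2 → C2) = ![u, v] := by
    funext i; fin_cases i <;> rfl
  have e1 : (fun y => G y w u) = fun y => -F y ![u, w] := funext fun y => by rw [e, BM_swap]
  have e0 : (fun y => G y v w) = fun y => F y ![v, w] := funext fun y => e y _ _
  have e2 : (fun y => G y u v) = fun y => F y ![u, v] := funext fun y => e y _ _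
  have f0 : (![u, v, w] : Fin 3 → C2) 0 = u := rfl
  have f1 : (![u, v, w] : Fin 3 → C2) 1 = v := rfl
  have f2 : (![u, v, w] : Fin 3 → C2) 2 = w := rfl
  rw [r0, r1, r2, f0, f1, f2, extD2, e0, e1, e2, fderiv_fun_neg]
  simp

theorem BM_dF1 {η : Form1 X} {p : X} (h : Sa (of1 η) p) (v w : C2) :
    dF (of1 η) p ![v, w] = extD (inChart (ch p) η) (ch p p) v w :=
  BM_d1 (h.differentiableAt (by simp)) (fun _ _ => rfl) v w

theorem to2_inj : Function.Injective (to2 : Fm X 2 → Form2 X) := by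
  intro A B h
  funext x
  ext v
  rw [BM_v2 v]
  exact congrFun (congrFun (congrFun h x) (v 0)) (v 1)

theorem closed2_iff {α : Form2 X} : Closed2 α ↔ ∃ A, Cls A ∧ to2 A = α := by
  constructor
  · rintro ⟨⟨h1, h2⟩, h3⟩
    have h4 : ∀ x, ∃ A : Alt 2, ∀ v w, A ![v, w] = α x v w := by
      intro x
      obtain ⟨B, hB, hα⟩ := h1 x
      obtain ⟨A, hA⟩ := BM_alt B hB
      exact ⟨A, fun v w => (hA v w).trans (hα v w).symm⟩
    choose A hA using h4
    have e : to2 A = α := by
      funext x v w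
      exact hA x v w
    subst e
    have hs : ∀ x, Sa A x := by
      intro x
      refine BM_sm fun v => ?_
      have := (h2 x (v 0) (v 1)).self_of_nhds
      simp only [BM_inC2, ← BM_v2 v] at this
      exact this
    refine ⟨A, ⟨fun x _ => hs x, ?_⟩, rfl⟩
    funext x
    ext v
    rw [BM_v3 v]
    exact (BM_d2 ((hs x).differentiableAt (by simp)) (BM_inC2 x A) _ _ _).trans (h3 x _ _ _)
  · rintro ⟨A, ⟨hs, hd⟩, rfl⟩
    refine ⟨⟨fun x => BM_bil (A x), fun p v w => ?_⟩, fun p u v w => ?_⟩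
    · filter_upwards [(ch p).open_target.mem_nhds (mem_chart_target C2 p)] with z hz
      have h1 := (sa_iff ((ch p).map_target hz)).1 (hs ((ch p).symm z) (mem_univ _))
      rw [(ch p).right_inv hz] at h1
      simp only [BM_inC2]
      exact BM_ap h1 _
    · rw [← BM_d2 ((hs p (mem_univ _)).differentiableAt (by simp)) (BM_inC2 p A)]
      have h1 : extDeriv (inC p A) (ch p p) = 0 := congrFun hd p
      rw [h1]
      rfl

theorem to2_cf {u : X → X → ℂ} {θ : X → Form1 X} (h : IsConnection u θ) :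
    to2 (cf θ) = P267P.c1 θ := by
  funext p v w
  have h1 : Sa (of1 (θ p)) p := (sa_of1.2 (h.1 p)).self_of_nhds
  have h2 := BM_dF1 h1 v w
  unfold to2 cf P267P.c1
  rw [ContinuousAlternatingMap.smul_apply, h2, smul_eq_mul]

theorem exact2_iff {α : Form2 X} : (∃ θ, Sm1 θ ∧ IsD θ α) ↔ ∃ A, Exa A ∧ to2 A = α := by
  constructor
  · rintro ⟨θ, h1, h2⟩
    have hs : ∀ p, Sa (of1 θ) p := fun p => (sa_of1.2 (h1 p)).self_of_nhds
    refine ⟨dF (of1 θ), ⟨of1 θ, fun p _ => hs p, rfl⟩, ?_⟩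
    funext p v w
    exact (BM_dF1 (hs p) v w).trans (h2 p v w).symm
  · rintro ⟨A, ⟨η, hs, rfl⟩, rfl⟩
    obtain ⟨θ, rfl⟩ : ∃ θ : Form1 X, of1 θ = η :=
      ⟨fun x => (ContinuousAlternatingMap.ofSubsingleton ℝ C2 ℂ (0 : Fin 1)).symm (η x),
        funext fun x => Equiv.apply_symm_apply _ _⟩
    refine ⟨θ, fun p => sa_of1.1 (Eventually.of_forall fun x => hs x (mem_univ _)), fun p v w => ?_⟩
    exact BM_dF1 (hs p (mem_univ _)) v w

end Vale.Agent.P267CW
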