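import Vale.Agent.P267CW.BH
import Vale.Agent.P267CW.BK2

/-! The curvature in a holomorphic chart is the Chern form: near `z` the form `inChart P (θ x)` is the pull back of
`inChart (ch x) (θ x)` by the transition map (`hol_tr`, `extDeriv_pullback`). -/

open scoped Manifold ContDiff Topology
open Filter Set Metric MeasureTheory

noncomputable section

namespace Vale.Agent.P267CW

open Vale.Agent.P267F Vale.Agent.P267I

set_option linter.unusedSectionVars false

variable {X : Type} [TopologicalSpace X] [ChartedSpace C2 X] [IsManifold 𝓘(ℂ, C2) ω X] {k : ℕ}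

theorem BM2_ext {W : C2 → Alt 1} {A : C2 → C2 →L[ℝ] ℂ} {z : C2} (hW : DifferentiableAt ℝ W z)
    (h : ∀ᶠ y in 𝓝 z, ∀ v : Fin 1 → C2, W y v = A y (v 0)) (v w : C2) :
    extDeriv W z ![v, w] = extD A z v w := by
  have e : ∀ u : Fin 1 → C2, fderiv ℝ (fun y => W y u) z = fderiv ℝ (fun y => A y (u 0)) z :=
    fun u => Filter.EventuallyEq.fderiv_eq (h.mono fun y hy => hy u)
  rw [extDeriv_apply hW, Fin.sum_univ_two, e, e, extD]
  simp [Fin.removeNth, sub_eq_add_neg]

theorem BM2_sm {P : OpenPartialHomeomorph X C2} (hP : HolChart P) {y : C2} (hy : y ∈ P.target)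
    {x : X} (hx : P.symm y ∈ (ch x).source) : ContDiffAt ℝ ∞ (ch x ∘ P.symm) y := by
  have h := hol_tr hP (holChart_ch x) (P.map_target hy) hx
  rw [P.right_inv hy] at h
  exact h.contDiffAt.restrict_scalars ℝ

theorem BM2_pb {P : OpenPartialHomeomorph X C2} (hP : HolChart P) {y : C2} (hy : y ∈ P.target)
    {x : X} (hx : P.symm y ∈ (ch x).source) (η : Form1 X) (v : Fin 1 → C2) :
    (inC x (of1 η) ((ch x ∘ P.symm) y)).compContinuousLinearMap (fderiv ℝ (ch x ∘ P.symm) y) v =
      inChart P η y (v 0) := by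
  have e : ch (P.symm y) ∘ P.symm =ᶠ[𝓝 y] (ch (P.symm y) ∘ (ch x).symm) ∘ ch x ∘ P.symm := by
    filter_upwards [(P.continuousAt_symm hy).preimage_mem_nhds
      ((ch x).open_source.mem_nhds hx)] with t ht
    simp only [Function.comp_apply, (ch x).left_inv ht]
  have h1 := (tr_sm hx (mem_chart_source C2 (P.symm y))).differentiableAt (by simp)
  have h2 := (BM2_sm hP hy hx).differentiableAt (by simp)
  rw [inChart, e.fderiv_eq, fderiv_comp y h1 h2]
  simp only [inC, of1, Function.comp_apply, (ch x).left_inv hx]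
  rfl

theorem curv_eq {u : X → X → ℂ} {θ : X → Form1 X} (h : IsConnection u θ)
    {P : OpenPartialHomeomorph X C2} (hP : HolChart P) {z : C2} (hz : z ∈ P.target) (a b : Fin 4) :
    curv P θ z a b = -(2 * Real.pi * Complex.I) * coef2 P (to2 (cf θ)) z a b := by
  have hx := mem_chart_source C2 (P.symm z)
  have h1 : Sa (of1 (θ (P.symm z))) (P.symm z) := (sa_of1.2 (h.1 _)).self_of_nhds
  have h2 := h1.differentiableAt (by simp)
  have h3 := BM2_sm hP hz hx
  have h4 := extDeriv_pullback (f := ch (P.symm z) ∘ P.symm) (x := z) h2 h3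
    (by rw [minSmoothness_of_isRCLikeNormedField]; exact WithTop.coe_le_coe.2 le_top)
  have h5 := BM2_ext (A := inChart P (θ (P.symm z)))
    ((h2.comp z (h3.differentiableAt (by simp))).continuousAlternatingMapCompContinuousLinearMap
      ((h3.fderiv_right (m := ∞) (by simp)).differentiableAt (by simp)))
    (by
      filter_upwards [P.open_target.mem_nhds hz, (P.continuousAt_symm hz).preimage_mem_nhds
        ((ch _).open_source.mem_nhds hx)] with y k1 k2 v
      exact BM2_pb hP k1 k2 _ v) (bs a) (bs b)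
  have h6 : (-(2 * Real.pi * Complex.I) : ℂ) ≠ 0 := by simp [Real.pi_ne_zero]
  rw [curv, ← h5]
  refine (congrArg (fun A : Alt 2 => A ![bs a, bs b]) h4).trans ?_
  simp only [coef2, inChart2, to2, cf, dF, ContinuousAlternatingMap.smul_apply, smul_eq_mul,
    mul_inv_cancel_left₀ h6, ContinuousAlternatingMap.compContinuousLinearMap_apply]
  congr 1
  funext i
  fin_cases i <;> rfl

end Vale.Agent.P267CW
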