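import Vale.Agent.P267CW.B0

/-! Lattice algebra. `L` spans `V` and `Q` is nondegenerate; pick a basis `v` of `V` inside `L`; `b ↦ (Q (v i) b)` embeds
`L` in `Fin m → ℤ`, so `L` is free of finite rank; its image contains the nonsingular Gram matrix, so the rank is `m`, and an
integral basis spans `V`, hence is a complex basis. The dual basis lies in `L`. -/

open scoped Manifold ContDiff Topology
open Filter Set Metric MeasureTheory

noncomputable section

namespace Vale.Agent.P267CW

open Vale.Agent.P267F Vale.Agent.P267I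

set_option linter.unusedSectionVars false

variable {X : Type} [TopologicalSpace X] [ChartedSpace C2 X] [IsManifold 𝓘(ℂ, C2) ω X] {k : ℕ}

theorem Lat_span {V : Type} [AddCommGroup V] [Module ℂ V] [FiniteDimensional ℂ V]
    (Q : V →ₗ[ℂ] V →ₗ[ℂ] ℂ) (L : AddSubgroup V) (h3 : ∀ b, (∀ a ∈ L, Q a b = 0) → b = 0) :
    Submodule.span ℂ (L : Set V) = ⊤ := by
  set W := Submodule.span ℂ (L : Set V)
  let Φ : V →ₗ[ℂ] Module.Dual ℂ W := (Q.domRestrict W).flip
  have hΦ : Function.Injective Φ := by
    rw [injective_iff_map_eq_zero]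
    intro b hb
    exact h3 b fun a ha => DFunLike.congr_fun hb ⟨a, Submodule.subset_span ha⟩
  have := LinearMap.finrank_le_finrank_of_injective hΦ
  rw [Subspace.dual_finrank_eq] at this
  exact Submodule.eq_top_of_finrank_eq (le_antisymm (Submodule.finrank_le W) this)

theorem Lat_free {V : Type} [AddCommGroup V] [Module ℂ V] [FiniteDimensional ℂ V]
    (Q : V →ₗ[ℂ] V →ₗ[ℂ] ℂ) (hQ : LinearMap.BilinForm.Nondegenerate Q) (L : AddSubgroup V)
    (h1 : ∀ a ∈ L, ∀ b ∈ L, ∃ d : ℤ, Q a b = d) (hL : Submodule.span ℂ (L : Set V) = ⊤) :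
    ∃ e : Module.Basis (Fin (Module.finrank ℂ V)) ℂ V,
      Submodule.span ℤ (Set.range e) = L.toIntSubmodule := by
  classical
  obtain ⟨s, hs1, hs2, hs3⟩ := exists_linearIndependent ℂ (L : Set V)
  have : Finite s := hs3.finite
  have : Fintype s := Fintype.ofFinite s
  let v : Module.Basis s ℂ V := Module.Basis.mk hs3 (by rw [Subtype.range_coe, hs2, hL])
  let w := LinearMap.BilinForm.dualBasis Q hQ v
  have hle : L.toIntSubmodule ≤ Submodule.span ℤ (Set.range w) := fun b hb => by
    refine (w.mem_span_iff_repr_mem ℤ b).2 fun i => ?_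
    obtain ⟨d, hd⟩ := h1 b hb (v i) (by simpa [v] using hs1 i.2)
    exact ⟨d, by rw [LinearMap.BilinForm.dualBasis_repr_apply, hd]; rfl⟩
  let w' := w.restrictScalars ℤ
  obtain ⟨n, f⟩ := Submodule.basisOfPidOfLE hle w'
  have hsp : Submodule.span ℤ (Set.range fun i => (f i : V)) = L.toIntSubmodule := by
    have := congrArg (Submodule.map L.toIntSubmodule.subtype) f.span_eq
    rw [Submodule.map_span, Submodule.map_top, Submodule.range_subtype, ← Set.range_comp] at this
    exact this
  have htop : ⊤ ≤ Submodule.span ℂ (Set.range fun i => (f i : V)) := by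
    rw [← hL, Submodule.span_le]
    intro b hb
    have hb' : b ∈ Submodule.span ℤ (Set.range fun i => (f i : V)) := by rw [hsp]; exact hb
    exact Submodule.span_subset_span ℤ ℂ _ hb'
  have n1 : Module.finrank ℂ V ≤ n := by
    have := finrank_range_le_card (R := ℂ) fun i => (f i : V)
    rw [Set.finrank, top_le_iff.1 htop, finrank_top, Fintype.card_fin] at this
    exact this
  have n2 : n ≤ Module.finrank ℂ V := by
    have := Module.Finite.of_basis w'
    have h := Submodule.finrank_mono hle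
    rwa [Module.finrank_eq_card_basis f, Module.finrank_eq_card_basis w', Fintype.card_fin,
      ← Module.finrank_eq_card_basis v] at h
  obtain rfl : n = Module.finrank ℂ V := le_antisymm n2 n1
  refine ⟨basisOfTopLeSpanOfCardEqFinrank _ htop (Fintype.card_fin _), ?_⟩
  rw [coe_basisOfTopLeSpanOfCardEqFinrank]
  exact hsp

theorem lat_basis {V : Type} [AddCommGroup V] [Module ℂ V] [FiniteDimensional ℂ V]
    (Q : V →ₗ[ℂ] V →ₗ[ℂ] ℂ) (hs : ∀ a b, Q a b = Q b a) (L : AddSubgroup V)
    (h1 : ∀ a ∈ L, ∀ b ∈ L, ∃ d : ℤ, Q a b = d)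
    (h2 : ∀ b, (∀ a ∈ L, ∃ d : ℤ, Q a b = d) → b ∈ L) (h3 : ∀ b, (∀ a ∈ L, Q a b = 0) → b = 0) :
    ∃ (e : Module.Basis (Fin (Module.finrank ℂ V)) ℂ V)
      (M : Matrix (Fin (Module.finrank ℂ V)) (Fin (Module.finrank ℂ V)) ℤ),
      (∀ i j, Q (e i) (e j) = M i j) ∧ IsUnit M.det ∧ (∀ b, b ∈ L ↔ ∀ i, ∃ d : ℤ, e.repr b i = d) ∧
      ∀ i, ∃ a ∈ L, ∀ b, e.repr b i = Q a b := by
  classical
  have hQ : LinearMap.BilinForm.Nondegenerate Q :=
    ⟨fun x hx => h3 x fun a _ => (hs a x).trans (hx a), fun x hx => h3 x fun a _ => hx a⟩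
  obtain ⟨e, he⟩ := Lat_free Q hQ L h1 (Lat_span Q L h3)
  have hm : ∀ b, b ∈ L ↔ ∀ i, ∃ d : ℤ, e.repr b i = d := fun b => by
    have := e.mem_span_iff_repr_mem ℤ b
    rw [he] at this
    exact this.trans (forall_congr' fun i => exists_congr fun d => eq_comm)
  have heL : ∀ i, e i ∈ L := fun i => by
    have : e i ∈ Submodule.span ℤ (Set.range e) := Submodule.subset_span ⟨i, rfl⟩
    rwa [he] at this
  let e' := LinearMap.BilinForm.dualBasis Q hQ e
  have hd : ∀ i b, e.repr b i = Q (e' i) b := fun i b => by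
    have : e.coord i = Q (e' i) := e.ext fun j => by
      rw [LinearMap.BilinForm.apply_dualBasis_left, Module.Basis.coord_apply, e.repr_self,
        Finsupp.single_apply]
    exact DFunLike.congr_fun this b
  have he' : ∀ i, e' i ∈ L := fun i => h2 _ fun a ha => by
    rw [hs, ← hd]
    exact (hm a).1 ha i
  choose M hM using fun i j => h1 _ (heL i) _ (heL j)
  choose N hN using fun k j => (hm _).1 (he' k) j
  refine ⟨e, Matrix.of M, hM, ?_, hm, fun i => ⟨e' i, he' i, hd i⟩⟩
  refine Matrix.isUnit_det_of_left_inverse (B := Matrix.of N) ?_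
  ext k j
  have h := hd k (e j)
  rw [← e.sum_repr (e' k), map_sum, LinearMap.sum_apply, e.repr_self, Finsupp.single_apply] at h
  simp only [map_smul, LinearMap.smul_apply, hN, hM, smul_eq_mul] at h
  have h' : (((Matrix.of N * Matrix.of M) k j : ℤ) : ℂ) = (((1 : Matrix _ _ ℤ) k j : ℤ) : ℂ) := by
    rw [Matrix.mul_apply, Matrix.one_apply]
    push_cast
    simp only [Matrix.of_apply]
    rw [← h]
    simp only [eq_comm]
  exact_mod_cast h'

end Vale.Agent.P267CW
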