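import Vale.Agent.P267CW.BH2
import Vale.Agent.P267CW.BI
import Vale.Agent.P267CW.BL
import Vale.Agent.P267CW.BM
import Vale.Agent.P267CW.BM2
import Vale.Agent.P267CW.Lat

/-! The Chern-Weil layer and the lattice of Chern classes. -/

open scoped Manifold ContDiff Topology
open Filter Set Metric MeasureTheory Matrix

noncomputable section

namespace Vale.Agent.P267CW

open Vale.Agent.P267F Vale.Agent.P267I

set_option linter.unusedSectionVars false

variable {X : Type} [TopologicalSpace X] [ChartedSpace C2 X] [IsManifold 𝓘(ℂ, C2) ω X]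
  {A A' B : Fm X 2} {u v : X → X → ℂ} {θ θ' : X → Form1 X}

theorem exists_PU (hX : IsSurface X) : Nonempty (PU X) := by
  obtain ⟨l, p, ρ, h1, h2, h3⟩ := exists_pou hX (fun p => (ch p).source)
    fun p => chart_source_mem_nhds C2 p
  exact ⟨⟨l, p, ρ, h1, h2, h3⟩⟩

theorem Cls.add (h : Cls A) (h' : Cls A') : Cls (A + A') :=
  ⟨fun x hx => (h.1 x hx).add (h'.1 x hx), funext fun x => by
    rw [dF_add (h.1 x trivial) (h'.1 x trivial), h.2, h'.2]
    exact add_zero _⟩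

theorem Cls.smul (c : ℂ) (h : Cls A) : Cls (c • A) :=
  ⟨fun x hx => (h.1 x hx).smul c, funext fun x => by
    rw [dF_smul c (h.1 x trivial), h.2]
    exact smul_zero (A := Alt 3) c⟩

theorem cls_zero : Cls (0 : Fm X 2) := ⟨fun _ _ => sa_zero, dF_zero⟩

theorem Exa.cls (h : Exa A) : Cls A := by
  obtain ⟨η, h1, rfl⟩ := h
  exact ⟨h1.dF isOpen_univ, funext fun x => dF_dF isOpen_univ h1 trivial⟩

theorem mem_Z2 {α : Form2 X} : α ∈ Z2 X ↔ ∃ A, Cls A ∧ to2 A = α := by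
  refine ⟨fun h => ?_, fun h => Submodule.subset_span (closed2_iff.2 h)⟩
  induction h using Submodule.span_induction with
  | mem x hx => exact closed2_iff.1 hx
  | zero => exact ⟨0, cls_zero, rfl⟩
  | add x y _ _ h1 h2 =>
    obtain ⟨A, a, rfl⟩ := h1
    obtain ⟨B, b, rfl⟩ := h2
    exact ⟨A + B, a.add b, rfl⟩
  | smul c x _ h1 =>
    obtain ⟨A, a, rfl⟩ := h1
    exact ⟨c • A, a.smul c, rfl⟩

theorem mem_B2 {α : Form2 X} : α ∈ B2 X ↔ ∃ A, Exa A ∧ to2 A = α := by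
  refine ⟨fun h => ?_, fun h => Submodule.subset_span (exact2_iff.2 h)⟩
  induction h using Submodule.span_induction with
  | mem x hx => exact exact2_iff.1 hx
  | zero => exact ⟨0, ⟨0, fun _ _ => sa_zero, dF_zero.symm⟩, rfl⟩
  | add x y _ _ h1 h2 =>
    obtain ⟨_, ⟨A, a, rfl⟩, rfl⟩ := h1
    obtain ⟨_, ⟨B, b, rfl⟩, rfl⟩ := h2
    exact ⟨dF A + dF B, ⟨A + B, fun x hx => (a x hx).add (b x hx),
      funext fun x => (dF_add (a x trivial) (b x trivial)).symm⟩, rfl⟩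
  | smul c x _ h1 =>
    obtain ⟨_, ⟨A, a, rfl⟩, rfl⟩ := h1
    exact ⟨c • dF A, ⟨c • A, fun x hx => (a x hx).smul c,
      funext fun x => (dF_smul c (a x trivial)).symm⟩, rfl⟩

variable (G : PU X)

theorem PU.uniq {d : ℂ} (h : Int2 (to2 A) (to2 B) d) : G.W A B = d :=
  h G.l (fun i => ch (G.p i)) G.ρ (fun _ => holChart_ch _) (fun i => (G.ρ_sm i).cont) G.ρ_supp
    G.ρ_sum

theorem PU.W_congr (hX : IsSurface X) (_ : Cls A) (hA' : Cls A') (hB : Cls B)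
    (e : Exa (A - A')) : G.W A B = G.W A' B := by
  have := G.W_add hX e.cls.1 hA'.1 hB.1
  rw [sub_add_cancel, G.W_exa hX e hB, zero_add] at this
  exact this

theorem interC_iff {d : ℂ} : InterC u v d ↔ ∀ θ θ', IsConnection u θ → IsConnection v θ' →
    Int2 (to2 (cf θ)) (to2 (cf θ')) d := by
  have key : ∀ θ θ', IsConnection u θ → IsConnection v θ' → ∀ (l : ℕ)
      (P : Fin l → OpenPartialHomeomorph X C2) (ψ : Fin l → X → ℝ), (∀ a, HolChart (P a)) →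
      -(4 * Real.pi ^ 2 : ℂ)⁻¹ * ∑ a, ∫ z in (P a).target,
        (ψ a ((P a).symm z) : ℂ) * wedge (curv (P a) θ z) (curv (P a) θ' z) =
      ∑ a, ∫ z in (P a).target, (ψ a ((P a).symm z) : ℂ) *
        wedge (coef2 (P a) (to2 (cf θ)) z) (coef2 (P a) (to2 (cf θ')) z) := by
    intro θ θ' h h' l P ψ hP
    rw [Finset.mul_sum]
    refine Finset.sum_congr rfl fun a _ => ?_
    rw [← integral_const_mul]
    refine setIntegral_congr_fun (P a).open_target.measurableSet fun z hz => ?_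
    have hπ : (Real.pi : ℂ) ≠ 0 := Complex.ofReal_ne_zero.2 Real.pi_ne_zero
    simp only [wedge, curv_eq h (hP a) hz, curv_eq h' (hP a) hz]
    field_simp
    rw [Complex.I_sq]
    ring
  exact ⟨fun h θ θ' h1 h2 l P ψ p1 p2 p3 p4 =>
      (key θ θ' h1 h2 l P ψ p1).symm.trans (h θ θ' l P ψ h1 h2 p1 p2 p3 p4),
    fun h θ θ' l P ψ h1 h2 p1 p2 p3 p4 =>
      (key θ θ' h1 h2 l P ψ p1).trans (h θ θ' h1 h2 l P ψ p1 p2 p3 p4)⟩

theorem PU.interC (hX : IsSurface X) (hu : IsBundle SmAt u) (hv : IsBundle SmAt v)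
    (h : IsConnection u θ) (h' : IsConnection v θ') : InterC u v (G.W (cf θ) (cf θ')) := by
  refine interC_iff.2 fun ϑ ϑ' k k' => ?_
  rw [G.W_congr hX (cf_cls hu h) (cf_cls hu k) (cf_cls hv h') (cf_sub hu h k), G.W_comm,
    G.W_congr hX (cf_cls hv h') (cf_cls hv k') (cf_cls hu k) (cf_sub hv h' k'), G.W_comm]
  exact G.int2 hX (cf_cls hu k).1 (cf_cls hv k').1

/-- A chosen connection. -/
def con (u : X → X → ℂ) : X → Form1 X := Classical.epsilon (IsConnection u)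

theorem con_spec (hX : IsSurface X) (hu : IsBundle SmAt u) : IsConnection u (con u) :=
  Classical.epsilon_spec (conn_exists hX hu)

omit [IsManifold 𝓘(ℂ, C2) ω X] in
theorem cw_form (hX : IsSurface X) : CWForm X := by
  have := hX.1
  obtain ⟨G⟩ := exists_PU hX
  refine ⟨fun u v => G.W (cf (con u)) (cf (con v)),
    fun u v hu hv => G.interC hX hu hv (con_spec hX hu) (con_spec hX hv),
    fun u v _ _ => G.W_comm _ _, fun u v w hu hv hw => ?_, fun u v w hu hv hw hs => ?_⟩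
  · obtain ⟨k1, k2⟩ := conn_mul hu hv (con_spec hX hu) (con_spec hX hv)
    have hm := bun_mul hu hv
    have cw := cf_cls hw (con_spec hX hw)
    beta_reduce
    rw [G.W_congr hX (cf_cls hm (con_spec hX hm)) (cf_cls hm k1) cw
      (cf_sub hm (con_spec hX hm) k1), k2]
    exact G.W_add hX (cf_cls hu (con_spec hX hu)).1 (cf_cls hv (con_spec hX hv)).1 cw.1
  · obtain ⟨ϑ, k1, k2⟩ := conn_iso hu hv hs (con_spec hX hu)
    beta_reduce
    rw [← k2]
    exact G.W_congr hX (cf_cls hv k1) (cf_cls hv (con_spec hX hv)) (cf_cls hw (con_spec hX hw))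
      (cf_sub hv k1 (con_spec hX hv))

variable (X) in
/-- The cohomology group. -/
abbrev HH := Z2 X ⧸ (B2 X).submoduleOf (Z2 X)

/-- The form attached to a cocycle. -/
def lf (a : Z2 X) : Fm X 2 := (mem_Z2.1 a.2).choose

theorem lf_cls (a : Z2 X) : Cls (lf a) := (mem_Z2.1 a.2).choose_spec.1

theorem to2_lf (a : Z2 X) : to2 (lf a) = a := (mem_Z2.1 a.2).choose_spec.2

theorem lf_add (a b : Z2 X) : lf (a + b) = lf a + lf b :=
  to2_inj ((to2_lf _).trans (congrArg₂ (· + ·) (to2_lf a) (to2_lf b)).symm)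

theorem lf_smul (c : ℂ) (a : Z2 X) : lf (c • a) = c • lf a :=
  to2_inj ((to2_lf _).trans (congrArg (c • ·) (to2_lf a)).symm)

/-- The class of a closed form. -/
def cl (h : Cls A) : HH X := Submodule.Quotient.mk ⟨to2 A, mem_Z2.2 ⟨A, h, rfl⟩⟩

theorem cl_eq {h : Cls A} {h' : Cls A'} : cl h = cl h' ↔ to2 A - to2 A' ∈ B2 X :=
  Submodule.Quotient.eq _

theorem cl_surj (b : HH X) : ∃ (A : Fm X 2) (h : Cls A), cl h = b := by
  obtain ⟨a, rfl⟩ := Submodule.Quotient.mk_surjective _ b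
  exact ⟨lf a, lf_cls a, congrArg _ (Subtype.ext (to2_lf a))⟩

theorem PU.exists_Q (hX : IsSurface X) : ∃ Q : HH X →ₗ[ℂ] HH X →ₗ[ℂ] ℂ,
    ∀ (A B : Fm X 2) (h : Cls A) (h' : Cls B), Q (cl h) (cl h') = G.W A B := by
  have add : ∀ a a' b : Z2 X, G.W (lf (a + a')) (lf b) = G.W (lf a) (lf b) + G.W (lf a') (lf b) :=
    fun a a' b => by rw [lf_add, G.W_add hX (lf_cls a).1 (lf_cls a').1 (lf_cls b).1]
  have sm : ∀ (c : ℂ) (a b : Z2 X), G.W (lf (c • a)) (lf b) = c • G.W (lf a) (lf b) :=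
    fun c a b => by rw [lf_smul, G.W_smul, smul_eq_mul]
  have z : ∀ a ∈ (B2 X).submoduleOf (Z2 X), ∀ b, G.W (lf a) (lf b) = 0 := fun a ha b => by
    obtain ⟨A, h1, h2⟩ := mem_B2.1 ha
    rw [to2_inj ((to2_lf a).trans h2.symm)]
    exact G.W_exa hX h1 (lf_cls b)
  refine ⟨(LinearMap.mk₂ ℂ (fun a b : Z2 X => G.W (lf a) (lf b)) add sm
    (fun a b b' => by rw [G.W_comm, add, G.W_comm (lf b), G.W_comm (lf b')])
    fun c a b => by rw [G.W_comm, sm, G.W_comm]).liftQ₂ _ _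
    (fun a ha => LinearMap.ext fun b => z a ha b)
    (fun a ha => LinearMap.ext fun b => (G.W_comm _ _).trans (z a ha b)), fun A B h h' => ?_⟩
  change G.W (lf _) (lf _) = _
  rw [to2_inj (to2_lf ⟨to2 A, _⟩), to2_inj (to2_lf ⟨to2 B, _⟩)]

variable (X) in
/-- The lattice of Chern classes. -/
def lat : AddSubgroup (HH X) where
  carrier := {b | ∃ (u : X → X → ℂ) (θ : X → Form1 X) (hu : IsBundle SmAt u)
    (h : IsConnection u θ), cl (cf_cls hu h) = b}
  zero_mem' := ⟨1, 0, bun_one.1, bun_one.2.1, (Submodule.Quotient.mk_eq_zero _).2 (by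
    change to2 (cf 0) ∈ B2 X
    rw [bun_one.2.2]
    exact (B2 X).zero_mem)⟩
  add_mem' := by
    rintro _ _ ⟨u, θ, hu, h, rfl⟩ ⟨v, θ', hv, h', rfl⟩
    obtain ⟨k1, k2⟩ := conn_mul hu hv h h'
    exact ⟨_, _, bun_mul hu hv, k1, congrArg _ (Subtype.ext (congrArg to2 k2))⟩
  neg_mem' := by
    rintro _ ⟨u, θ, hu, h, rfl⟩
    obtain ⟨k1, k2⟩ := conn_inv hu h
    exact ⟨_, _, bun_inv hu, k1, congrArg _ (Subtype.ext (congrArg to2 k2))⟩

omit [IsManifold 𝓘(ℂ, C2) ω X] in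
theorem pd_of (hX : IsSurface X) (hint : InterInt X)
    (dualA : ∀ β : Form2 X, Closed2 β →
      (∀ u θ, IsBundle SmAt u → IsConnection u θ → ∃ d : ℤ, Int2 (P267P.c1 θ) β d) →
      ∃ u θ, IsBundle SmAt u ∧ IsConnection u θ ∧ Real2 (P267P.c1 θ) ∧ β - P267P.c1 θ ∈ B2 X)
    (dual0 : ∀ β : Form2 X, Closed2 β →
      (∀ u θ, IsBundle SmAt u → IsConnection u θ → Int2 (P267P.c1 θ) β 0) → β ∈ B2 X)
    (fd : FiniteDimensional ℂ (Z2 X ⧸ (B2 X).submoduleOf (Z2 X))) : PDdR X := by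
  have := hX.1
  obtain ⟨G⟩ := exists_PU hX
  obtain ⟨Q, hQ⟩ := G.exists_Q hX
  have h1 : ∀ a ∈ lat X, ∀ b ∈ lat X, ∃ d : ℤ, Q a b = d := by
    rintro _ ⟨u, θ, hu, h, rfl⟩ _ ⟨v, θ', hv, h', rfl⟩
    obtain ⟨d, hd⟩ := hint u v hu hv
    exact ⟨d, (hQ _ _ _ _).trans (G.uniq (interC_iff.1 (interC_int.2 hd) θ θ' h h'))⟩
  have h2 : ∀ b, (∀ a ∈ lat X, ∃ d : ℤ, Q a b = d) → ∃ (u : X → X → ℂ) (θ : X → Form1 X)
      (hu : IsBundle SmAt u) (h : IsConnection u θ), Real2 (to2 (cf θ)) ∧ cl (cf_cls hu h) = b := by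
    intro b hb
    obtain ⟨B, hB, rfl⟩ := cl_surj b
    obtain ⟨u, θ, hu, h, k1, k2⟩ := dualA (to2 B) (closed2_iff.2 ⟨B, hB, rfl⟩) fun u θ hu h => by
      obtain ⟨d, hd⟩ := hb _ ⟨u, θ, hu, h, rfl⟩
      rw [← to2_cf h]
      exact ⟨d, hd ▸ hQ _ _ (cf_cls hu h) hB ▸ G.int2 hX (cf_cls hu h).1 hB.1⟩
    rw [← to2_cf h] at k1 k2
    exact ⟨u, θ, hu, h, k1, (cl_eq.2 k2).symm⟩
  have hs : ∀ a b, Q a b = Q b a := fun a b => by
    obtain ⟨A, hA, rfl⟩ := cl_surj a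
    obtain ⟨B, hB, rfl⟩ := cl_surj b
    rw [hQ, hQ, G.W_comm]
  obtain ⟨e, M, m1, m2, m3, m4⟩ := lat_basis Q hs (lat X) h1 (fun b hb => by
    obtain ⟨u, θ, hu, h, -, k⟩ := h2 b hb
    exact ⟨u, θ, hu, h, k⟩) fun b hb => by
      obtain ⟨B, hB, rfl⟩ := cl_surj b
      refine (Submodule.Quotient.mk_eq_zero _).2 (dual0 (to2 B) (closed2_iff.2 ⟨B, hB, rfl⟩)
        fun u θ hu h => ?_)
      rw [← to2_cf h, ← hb _ ⟨u, θ, hu, h, rfl⟩, hQ]
      exact G.int2 hX (cf_cls hu h).1 hB.1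
  have ex : ∀ a b, Q a b = (fun i => e.repr a i) ⬝ᵥ M.map (Int.cast : ℤ → ℂ) *ᵥ
      fun i => e.repr b i := fun a b => by
    conv_lhs => rw [← e.sum_repr a, ← e.sum_repr b]
    simp only [map_sum, LinearMap.sum_apply, map_smul, LinearMap.smul_apply, m1, smul_eq_mul,
      dotProduct, mulVec, Matrix.map_apply, Finset.mul_sum]
    rw [Finset.sum_comm]
    exact Finset.sum_congr rfl fun i _ => Finset.sum_congr rfl fun j _ => by ring
  have hc : ∀ u : X → X → ℂ, ∃ x : Fin (Module.finrank ℂ (HH X)) → ℤ, ∀ (hu : IsBundle SmAt u) θ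
      (h : IsConnection u θ) i, e.repr (cl (cf_cls hu h)) i = x i := fun u => by
    by_cases hu : IsBundle SmAt u
    · choose x hx using (m3 _).1 ⟨u, _, hu, con_spec hX hu, rfl⟩
      refine ⟨x, fun _ θ h i => ?_⟩
      rw [← hx i, cl_eq.2 (mem_B2.2 ⟨_, cf_sub hu h (con_spec hX hu), rfl⟩)]
    · exact ⟨0, fun h => absurd h hu⟩
  choose c hc using hc
  unfold PDdR b2dR
  refine ⟨M, c, Matrix.IsSymm.ext fun i j => ?_, m2, fun x => ?_, fun u v hu hv => ?_,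
    fun α hα hr => ?_⟩
  · exact Int.cast_injective (α := ℂ) ((m1 j i).symm.trans ((hs _ _).trans (m1 i j)))
  · obtain ⟨u, θ, hu, h, k⟩ := (m3 (e.equivFun.symm fun i => x i)).2 fun i =>
      ⟨x i, congrFun (e.equivFun.apply_symm_apply fun i => (x i : ℂ)) i⟩
    refine ⟨u, hu, funext fun i => ?_⟩
    have k1 := hc u hu θ h i
    rw [k] at k1
    have k2 := congrFun (e.equivFun.apply_symm_apply fun i => (x i : ℂ)) i
    exact_mod_cast k1.symm.trans k2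
  · have k := G.interC hX hu hv (con_spec hX hu) (con_spec hX hv)
    rw [← hQ _ _ (cf_cls hu (con_spec hX hu)) (cf_cls hv (con_spec hX hv)), ex] at k
    rw [funext (hc u hu _ (con_spec hX hu)), funext (hc v hv _ (con_spec hX hv))] at k
    have e1 : ((c u ⬝ᵥ M *ᵥ c v : ℤ) : ℂ) =
        (fun i => (c u i : ℂ)) ⬝ᵥ M.map (Int.cast : ℤ → ℂ) *ᵥ fun i => (c v i : ℂ) := by
      simp only [dotProduct, mulVec, Matrix.map_apply, Int.cast_sum, Int.cast_mul]
    exact interC_int.1 (e1 ▸ k)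
  · obtain ⟨A, hA, rfl⟩ := closed2_iff.1 hα
    have re : ∀ i, (((e.repr (cl hA) i).re : ℝ) : ℂ) = e.repr (cl hA) i := fun i => by
      obtain ⟨a, ha, k⟩ := m4 i
      obtain ⟨u, θ, hu, h, k1, rfl⟩ := h2 a fun b hb => h1 b hb a ha
      refine Complex.ext rfl ?_
      rw [Complex.ofReal_im, k, hQ, G.W_real k1 hr]
    refine ⟨fun i => (e.repr (cl hA) i).re, ?_⟩
    have k := G.int2 hX hA.1 hA.1
    rw [← hQ _ _ hA hA, ex] at k
    have e1 : (((fun i => (e.repr (cl hA) i).re) ⬝ᵥ M.map (Int.cast : ℤ → ℝ) *ᵥ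
        fun i => (e.repr (cl hA) i).re : ℝ) : ℂ) = (fun i => e.repr (cl hA) i) ⬝ᵥ
          M.map (Int.cast : ℤ → ℂ) *ᵥ fun i => e.repr (cl hA) i := by
      simp only [dotProduct, mulVec, Matrix.map_apply, Complex.ofReal_sum, Complex.ofReal_mul,
        Complex.ofReal_intCast, re]
    exact e1 ▸ k

end Vale.Agent.P267CW
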