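import Vale.Agent.P267CW.Main
import Vale.Agent.P267P.Dual

/-! Poincare duality for the lattice of Chern classes. -/

namespace Vale.Agent.P267CW

open Vale.Agent.P267F Vale.Agent.P267I

theorem pd_thm {X : Type} [TopologicalSpace X] [ChartedSpace C2 X] (hX : IsSurface X)
    (hint : InterInt X) : PDdR X := by
  obtain ⟨h1, h2, h3, h4⟩ := id hX
  exact pd_of hX hint (fun _ h k => P267P.dualA h k) (fun _ h k => P267P.dual0 h k) P267P.findim

end Vale.Agent.P267CW
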